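import Vale.Agent.P088.R2.H205.C.SpecP

/-!
# P088, zone C: all derivatives of the weight `ψ(T) + G(T) Φ(|x - y|²)`, `T = ν·(x + y)`

`f k` is the `k`-th derivative of `f 0` for `f = ψ, G, Φ`.
-/

open Set Filter
open scoped ContDiff Topology

noncomputable section

namespace Vale.Agent.P088.R2.H406.Z

open Vale.Agent.P088.LR Vale.Agent.P088.HY
open Vale.Agent.P088.R2.H644
open Vale.Agent.P088.R2.H205.CP (lx ly hν s2)

variable {n : ℕ}

/-- A function with all its derivatives. -/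
structure Chn (f : ℕ → ℝ → ℝ) : Prop where
  /-- the derivatives -/
  d : ∀ k s, HasDerivAt (f k) (f (k + 1) s) s

theorem Chn.sm {f : ℕ → ℝ → ℝ} (h : Chn f) (k : ℕ) : ContDiff ℝ ∞ (f k) := by
  have key : ∀ m : ℕ, ∀ k, ContDiff ℝ m (f k) := by
    intro m
    induction m with
    | zero =>
      intro k
      refine contDiff_zero.2 ?_
      exact continuous_iff_continuousAt.2 fun s => (h.d k s).continuousAt
    | succ m ih =>
      intro k
      have e : deriv (f k) = f (k + 1) := funext fun s => (h.d k s).deriv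
      have h1 : ContDiff ℝ (m + 1) (f k) := by
        rw [contDiff_succ_iff_deriv]
        refine ⟨fun s => (h.d k s).differentiableAt, by simp, ?_⟩
        rw [e]
        exact ih (k + 1)
      exact_mod_cast h1
  exact contDiff_infty.2 fun m => key m k

theorem chn_of {f : ℝ → ℝ} (hf : ContDiff ℝ ∞ f) : Chn fun k => iteratedDeriv k f where
  d k s := by
    have h : DifferentiableAt ℝ (iteratedDeriv k f) s :=
      (hf.differentiable_iteratedDeriv k (by exact_mod_cast WithTop.coe_lt_top _)) s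
    rw [iteratedDeriv_succ]
    exact h.hasDerivAt

theorem smooth_dd {f : VV n → ℝ} (hf : ContDiff ℝ ∞ f) (v : VV n) : ContDiff ℝ ∞ (dd v f) :=
  (hf.fderiv_right (m := ∞) (by simp)).clm_apply contDiff_const

theorem smooth_dx {f : VV n → ℝ} (hf : ContDiff ℝ ∞ f) (i : Fin n) : ContDiff ℝ ∞ (dx i f) :=
  smooth_dd hf _

theorem smooth_dy {f : VV n → ℝ} (hf : ContDiff ℝ ∞ f) (i : Fin n) : ContDiff ℝ ∞ (dy i f) :=
  smooth_dd hf _

theorem HD_of {f : VV n → ℝ} (hf : ContDiff ℝ ∞ f) (v z : VV n) : HD v f (dd v f z) z :=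
  ⟨hf.contDiffAt.differentiableAt (by simp), rfl⟩

/-! ### Linearity of the Laplacians -/

theorem lx_add {f g : VV n → ℝ} (hf : ContDiff ℝ ∞ f) (hg : ContDiff ℝ ∞ g) :
    lx (fun z => f z + g z) = fun z => lx f z + lx g z := by
  funext z
  unfold lx
  rw [← Finset.sum_add_distrib]
  refine Finset.sum_congr rfl fun i _ => ?_
  have e : dx i (fun z => f z + g z) = fun z => dx i f z + dx i g z := by
    funext w
    rw [dx_eq, ((HD_of hf _ w).add (HD_of hg _ w)).e, ← dx_eq, ← dx_eq]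
  rw [e, dx_eq, ((HD_of (smooth_dx hf i) _ z).add (HD_of (smooth_dx hg i) _ z)).e]
  rfl

theorem ly_add {f g : VV n → ℝ} (hf : ContDiff ℝ ∞ f) (hg : ContDiff ℝ ∞ g) :
    ly (fun z => f z + g z) = fun z => ly f z + ly g z := by
  funext z
  unfold ly
  rw [← Finset.sum_add_distrib]
  refine Finset.sum_congr rfl fun i _ => ?_
  have e : dy i (fun z => f z + g z) = fun z => dy i f z + dy i g z := by
    funext w
    rw [dy_eq, ((HD_of hf _ w).add (HD_of hg _ w)).e, ← dy_eq, ← dy_eq]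
  rw [e, dy_eq, ((HD_of (smooth_dy hf i) _ z).add (HD_of (smooth_dy hg i) _ z)).e]
  rfl

theorem lx_cmul {f : VV n → ℝ} (c : ℝ) (hf : ContDiff ℝ ∞ f) :
    lx (fun z => c * f z) = fun z => c * lx f z := by
  funext z
  unfold lx
  rw [Finset.mul_sum]
  refine Finset.sum_congr rfl fun i _ => ?_
  have e : dx i (fun z => c * f z) = fun z => c * dx i f z := by
    funext w
    rw [dx_eq, ((HD_of hf _ w).cmul c).e, ← dx_eq]
  rw [e, dx_eq, ((HD_of (smooth_dx hf i) _ z).cmul c).e]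
  rfl

theorem ly_cmul {f : VV n → ℝ} (c : ℝ) (hf : ContDiff ℝ ∞ f) :
    ly (fun z => c * f z) = fun z => c * ly f z := by
  funext z
  unfold ly
  rw [Finset.mul_sum]
  refine Finset.sum_congr rfl fun i _ => ?_
  have e : dy i (fun z => c * f z) = fun z => c * dy i f z := by
    funext w
    rw [dy_eq, ((HD_of hf _ w).cmul c).e, ← dy_eq]
  rw [e, dy_eq, ((HD_of (smooth_dy hf i) _ z).cmul c).e]
  rfl

/-! ### The building blocks -/

/-- `ν·v`. -/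
def vν (ν v : V n) : ℝ := ∑ i, ν i * v i

theorem vν_single (ν : V n) (i : Fin n) : vν ν (Pi.single i 1) = ν i := by
  simp [vν, Pi.single_apply]

theorem vν_zero (ν : V n) : vν ν 0 = 0 := by simp [vν]

theorem contDiff_hν (ν : V n) : ContDiff ℝ ∞ (hν ν : VV n → ℝ) :=
  ContDiff.sum fun i _ => contDiff_const.mul ((contDiff_fst' i).add (contDiff_snd' i))

theorem HD_hν (v z : VV n) (ν : V n) : HD v (hν ν) (vν ν v.1 + vν ν v.2) z := by
  refine ⟨(contDiff_hν ν).contDiffAt.differentiableAt (by simp), ?_⟩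
  have h : (hν ν : VV n → ℝ) = fun z => ∑ i, ν i * (z.1 i + z.2 i) := rfl
  rw [h, dd_sum Finset.univ (F := fun i z => ν i * (z.1 i + z.2 i))
    fun i _ => (((HD.fst v z i).add (HD.snd v z i)).cmul (ν i)).d]
  unfold vν
  rw [← Finset.sum_add_distrib]
  refine Finset.sum_congr rfl fun i _ => ?_
  rw [(((HD.fst v z i).add (HD.snd v z i)).cmul (ν i)).e]
  ring

/-- `q_ν = ν·(x - y)`. -/
def qn (ν : V n) (z : VV n) : ℝ := ∑ i, ν i * qv i z

theorem contDiff_qn (ν : V n) : ContDiff ℝ ∞ (qn ν : VV n → ℝ) :=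
  ContDiff.sum fun i _ => contDiff_const.mul (contDiff_qv i)

theorem HD_qn (v z : VV n) (ν : V n) : HD v (qn ν) (vν ν v.1 - vν ν v.2) z := by
  refine ⟨(contDiff_qn ν).contDiffAt.differentiableAt (by simp), ?_⟩
  have h : (qn ν : VV n → ℝ) = fun z => ∑ i, ν i * qv i z := rfl
  rw [h, dd_sum Finset.univ (F := fun i z => ν i * qv i z)
    fun i _ => ((HD.qv v z i).cmul (ν i)).d]
  unfold vν
  rw [← Finset.sum_sub_distrib]
  refine Finset.sum_congr rfl fun i _ => ?_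
  rw [((HD.qv v z i).cmul (ν i)).e]
  ring

/-- `h(T) k(s)`. -/
def t0 (ν : V n) (h k : ℝ → ℝ) (z : VV n) : ℝ := h (hν ν z) * k (qq z)

/-- `h(T) k(s) q_i`. -/
def t1 (ν : V n) (i : Fin n) (h k : ℝ → ℝ) (z : VV n) : ℝ := h (hν ν z) * (k (qq z) * qv i z)

/-- `h(T) k(s) q_ν`. -/
def tn (ν : V n) (h k : ℝ → ℝ) (z : VV n) : ℝ := h (hν ν z) * (k (qq z) * qn ν z)

/-- `h(T) k(s) q_i q_ν`. -/
def tm (ν : V n) (i : Fin n) (h k : ℝ → ℝ) (z : VV n) : ℝ :=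
  h (hν ν z) * (k (qq z) * qv i z * qn ν z)

section der

variable {v z : VV n} {h k h1 k1 h2 k2 : ℝ → ℝ}

theorem HD_t0 (hh : ∀ s, HasDerivAt h (h1 s) s) (hk : ∀ s, HasDerivAt k (k1 s) s)
    (v z : VV n) (ν : V n) : HD v (t0 ν h k)
      (h1 (hν ν z) * (vν ν v.1 + vν ν v.2) * k (qq z) + h (hν ν z) * (k1 (qq z) * dd v qq z)) z :=
  ((HD_hν v z ν).comp (hh _)).mul (HD.rad (hk _))

theorem HD_t1 (hh : ∀ s, HasDerivAt h (h1 s) s) (hk : ∀ s, HasDerivAt k (k1 s) s)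
    (v z : VV n) (ν : V n) (i : Fin n) : HD v (t1 ν i h k)
      (h1 (hν ν z) * (vν ν v.1 + vν ν v.2) * (k (qq z) * qv i z) + h (hν ν z) *
        (k1 (qq z) * dd v qq z * qv i z + k (qq z) * (v.1 i - v.2 i))) z :=
  ((HD_hν v z ν).comp (hh _)).mul ((HD.rad (hk _)).mul (HD.qv v z i))

theorem HD_tn (hh : ∀ s, HasDerivAt h (h1 s) s) (hk : ∀ s, HasDerivAt k (k1 s) s)
    (v z : VV n) (ν : V n) : HD v (tn ν h k)
      (h1 (hν ν z) * (vν ν v.1 + vν ν v.2) * (k (qq z) * qn ν z) + h (hν ν z) *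
        (k1 (qq z) * dd v qq z * qn ν z + k (qq z) * (vν ν v.1 - vν ν v.2))) z :=
  ((HD_hν v z ν).comp (hh _)).mul ((HD.rad (hk _)).mul (HD_qn v z ν))

theorem HD_tm (hh : ∀ s, HasDerivAt h (h1 s) s) (hk : ∀ s, HasDerivAt k (k1 s) s)
    (v z : VV n) (ν : V n) (i : Fin n) : HD v (tm ν i h k)
      (h1 (hν ν z) * (vν ν v.1 + vν ν v.2) * (k (qq z) * qv i z * qn ν z) + h (hν ν z) *
        ((k1 (qq z) * dd v qq z * qv i z + k (qq z) * (v.1 i - v.2 i)) * qn ν z +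
          k (qq z) * qv i z * (vν ν v.1 - vν ν v.2))) z :=
  ((HD_hν v z ν).comp (hh _)).mul
    (((HD.rad (hk _)).mul (HD.qv v z i)).mul (HD_qn v z ν))

theorem dx_t0 (hh : ∀ s, HasDerivAt h (h1 s) s) (hk : ∀ s, HasDerivAt k (k1 s) s)
    (ν : V n) (i : Fin n) : dx i (t0 ν h k : VV n → ℝ) = fun z => ν i * t0 ν h1 k z +
      2 * t1 ν i h k1 z := by
  funext z
  rw [dx_eq, (HD_t0 hh hk _ z ν).e, ← dx_eq, dx_qq]
  simp only [vν_single, vν_zero, t0, t1]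
  ring

theorem dy_t0 (hh : ∀ s, HasDerivAt h (h1 s) s) (hk : ∀ s, HasDerivAt k (k1 s) s)
    (ν : V n) (i : Fin n) : dy i (t0 ν h k : VV n → ℝ) = fun z => ν i * t0 ν h1 k z +
      -2 * t1 ν i h k1 z := by
  funext z
  rw [dy_eq, (HD_t0 hh hk _ z ν).e, ← dy_eq, dy_qq]
  simp only [vν_single, vν_zero, t0, t1]
  ring

theorem dx_tn (hh : ∀ s, HasDerivAt h (h1 s) s) (hk : ∀ s, HasDerivAt k (k1 s) s)
    (ν : V n) (i : Fin n) : dx i (tn ν h k : VV n → ℝ) = fun z => ν i * tn ν h1 k z +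
      2 * tm ν i h k1 z + ν i * t0 ν h k z := by
  funext z
  rw [dx_eq, (HD_tn hh hk _ z ν).e, ← dx_eq, dx_qq]
  simp only [vν_single, vν_zero, t0, tn, tm]
  ring

theorem dy_tn (hh : ∀ s, HasDerivAt h (h1 s) s) (hk : ∀ s, HasDerivAt k (k1 s) s)
    (ν : V n) (i : Fin n) : dy i (tn ν h k : VV n → ℝ) = fun z => ν i * tn ν h1 k z +
      -2 * tm ν i h k1 z + -ν i * t0 ν h k z := by
  funext z
  rw [dy_eq, (HD_tn hh hk _ z ν).e, ← dy_eq, dy_qq]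
  simp only [vν_single, vν_zero, t0, tn, tm]
  ring

/-- The Laplacian of a radial function, as a function of `s = |q|²`. -/
def lpk (m : ℝ) (k1 k2 : ℝ → ℝ) (s : ℝ) : ℝ := 4 * s * k2 s + m * k1 s

theorem dxx_t0 (hh : ∀ s, HasDerivAt h (h1 s) s) (hh1 : ∀ s, HasDerivAt h1 (h2 s) s)
    (hk : ∀ s, HasDerivAt k (k1 s) s) (hk1 : ∀ s, HasDerivAt k1 (k2 s) s)
    (ν : V n) (i : Fin n) (z : VV n) : dx i (dx i (t0 ν h k)) z =
      t0 ν h2 k z * ν i ^ 2 + 4 * (h1 (hν ν z) * k1 (qq z)) * (ν i * qv i z) +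
        (4 * (h (hν ν z) * k2 (qq z)) * qv i z ^ 2 + 2 * t0 ν h k1 z) := by
  rw [dx_t0 hh hk, dx_eq, (((HD_t0 hh1 hk _ z ν).cmul (ν i)).add
    ((HD_t1 hh hk1 _ z ν i).cmul 2)).e, ← dx_eq, dx_qq]
  simp only [vν_single, vν_zero, Pi.single_apply, Pi.zero_apply, if_true, t0]
  ring

theorem dyy_t0 (hh : ∀ s, HasDerivAt h (h1 s) s) (hh1 : ∀ s, HasDerivAt h1 (h2 s) s)
    (hk : ∀ s, HasDerivAt k (k1 s) s) (hk1 : ∀ s, HasDerivAt k1 (k2 s) s)
    (ν : V n) (i : Fin n) (z : VV n) : dy i (dy i (t0 ν h k)) z =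
      t0 ν h2 k z * ν i ^ 2 - 4 * (h1 (hν ν z) * k1 (qq z)) * (ν i * qv i z) +
        (4 * (h (hν ν z) * k2 (qq z)) * qv i z ^ 2 + 2 * t0 ν h k1 z) := by
  rw [dy_t0 hh hk, dy_eq, (((HD_t0 hh1 hk _ z ν).cmul (ν i)).add
    ((HD_t1 hh hk1 _ z ν i).cmul (-2))).e, ← dy_eq, dy_qq]
  simp only [vν_single, vν_zero, Pi.single_apply, Pi.zero_apply, if_true, t0]
  ring

theorem lx_t0 (hh : ∀ s, HasDerivAt h (h1 s) s) (hh1 : ∀ s, HasDerivAt h1 (h2 s) s)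
    (hk : ∀ s, HasDerivAt k (k1 s) s) (hk1 : ∀ s, HasDerivAt k1 (k2 s) s)
    {ν : V n} (h0 : s2 ν = 1) : lx (t0 ν h k) = fun z =>
      t0 ν h2 k z + 4 * tn ν h1 k1 z + t0 ν h (lpk (2 * n) k1 k2) z := by
  funext z
  have h1' : ∑ i, ν i ^ 2 = 1 := h0
  unfold lx
  simp only [dxx_t0 hh hh1 hk hk1, Finset.sum_add_distrib, ← Finset.mul_sum,
    Finset.sum_const, Finset.card_univ, Fintype.card_fin, nsmul_eq_mul, ← qq_eq, h1']
  unfold t0 tn lpk qn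
  ring

theorem ly_t0 (hh : ∀ s, HasDerivAt h (h1 s) s) (hh1 : ∀ s, HasDerivAt h1 (h2 s) s)
    (hk : ∀ s, HasDerivAt k (k1 s) s) (hk1 : ∀ s, HasDerivAt k1 (k2 s) s)
    {ν : V n} (h0 : s2 ν = 1) : ly (t0 ν h k) = fun z =>
      t0 ν h2 k z - 4 * tn ν h1 k1 z + t0 ν h (lpk (2 * n) k1 k2) z := by
  funext z
  have h1' : ∑ i, ν i ^ 2 = 1 := h0
  unfold ly
  simp only [dyy_t0 hh hh1 hk hk1, Finset.sum_add_distrib, Finset.sum_sub_distrib,
    ← Finset.mul_sum, Finset.sum_const, Finset.card_univ, Fintype.card_fin, nsmul_eq_mul,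
    ← qq_eq, h1']
  unfold t0 tn lpk qn
  ring

theorem dxx_tn (hh : ∀ s, HasDerivAt h (h1 s) s) (hh1 : ∀ s, HasDerivAt h1 (h2 s) s)
    (hk : ∀ s, HasDerivAt k (k1 s) s) (hk1 : ∀ s, HasDerivAt k1 (k2 s) s)
    (ν : V n) (i : Fin n) (z : VV n) : dx i (dx i (tn ν h k)) z =
      (tn ν h2 k z + 2 * t0 ν h1 k z) * ν i ^ 2 +
        (4 * (h1 (hν ν z) * k1 (qq z) * qn ν z) + 4 * (h (hν ν z) * k1 (qq z))) * (ν i * qv i z) +
        (4 * (h (hν ν z) * k2 (qq z) * qn ν z) * qv i z ^ 2 + 2 * tn ν h k1 z) := by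
  rw [dx_tn hh hk, dx_eq, ((((HD_tn hh1 hk _ z ν).cmul (ν i)).add
    ((HD_tm hh hk1 _ z ν i).cmul 2)).add ((HD_t0 hh hk _ z ν).cmul (ν i))).e, ← dx_eq, dx_qq]
  simp only [vν_single, vν_zero, Pi.single_apply, Pi.zero_apply, if_true, t0, tn]
  ring

theorem dyy_tn (hh : ∀ s, HasDerivAt h (h1 s) s) (hh1 : ∀ s, HasDerivAt h1 (h2 s) s)
    (hk : ∀ s, HasDerivAt k (k1 s) s) (hk1 : ∀ s, HasDerivAt k1 (k2 s) s)
    (ν : V n) (i : Fin n) (z : VV n) : dy i (dy i (tn ν h k)) z =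
      (tn ν h2 k z - 2 * t0 ν h1 k z) * ν i ^ 2 +
        (-(4 * (h1 (hν ν z) * k1 (qq z) * qn ν z)) + 4 * (h (hν ν z) * k1 (qq z))) *
          (ν i * qv i z) +
        (4 * (h (hν ν z) * k2 (qq z) * qn ν z) * qv i z ^ 2 + 2 * tn ν h k1 z) := by
  rw [dy_tn hh hk, dy_eq, ((((HD_tn hh1 hk _ z ν).cmul (ν i)).add
    ((HD_tm hh hk1 _ z ν i).cmul (-2))).add ((HD_t0 hh hk _ z ν).cmul (-ν i))).e, ← dy_eq, dy_qq]
  simp only [vν_single, vν_zero, Pi.single_apply, Pi.zero_apply, if_true, t0, tn]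
  ring

theorem lx_tn (hh : ∀ s, HasDerivAt h (h1 s) s) (hh1 : ∀ s, HasDerivAt h1 (h2 s) s)
    (hk : ∀ s, HasDerivAt k (k1 s) s) (hk1 : ∀ s, HasDerivAt k1 (k2 s) s)
    {ν : V n} (h0 : s2 ν = 1) : lx (tn ν h k) = fun z =>
      tn ν h2 k z + 4 * (h1 (hν ν z) * (k1 (qq z) * qn ν z * qn ν z)) + 2 * t0 ν h1 k z +
        tn ν h (lpk (2 * n + 4) k1 k2) z := by
  funext z
  have h1' : ∑ i, ν i ^ 2 = 1 := h0
  unfold lx
  simp only [dxx_tn hh hh1 hk hk1, Finset.sum_add_distrib, ← Finset.mul_sum,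
    Finset.sum_const, Finset.card_univ, Fintype.card_fin, nsmul_eq_mul, ← qq_eq, h1']
  have hq : ∑ i, ν i * qv i z = qn ν z := rfl
  rw [hq]
  unfold tn t0 lpk
  ring

theorem ly_tn (hh : ∀ s, HasDerivAt h (h1 s) s) (hh1 : ∀ s, HasDerivAt h1 (h2 s) s)
    (hk : ∀ s, HasDerivAt k (k1 s) s) (hk1 : ∀ s, HasDerivAt k1 (k2 s) s)
    {ν : V n} (h0 : s2 ν = 1) : ly (tn ν h k) = fun z =>
      tn ν h2 k z - 4 * (h1 (hν ν z) * (k1 (qq z) * qn ν z * qn ν z)) - 2 * t0 ν h1 k z +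
        tn ν h (lpk (2 * n + 4) k1 k2) z := by
  funext z
  have h1' : ∑ i, ν i ^ 2 = 1 := h0
  unfold ly
  simp only [dyy_tn hh hh1 hk hk1, Finset.sum_add_distrib, ← Finset.mul_sum,
    Finset.sum_const, Finset.card_univ, Fintype.card_fin, nsmul_eq_mul, ← qq_eq, h1']
  have hq : ∑ i, ν i * qv i z = qn ν z := rfl
  rw [hq]
  unfold tn t0 lpk
  ring

end der

end Vale.Agent.P088.R2.H406.Z
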