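import Vale.Agent.P088.R2.H406.Z.Der
import Vale.Agent.P088.R2.H406.C.Abs2

/-!
# P088, zone C: the star density of the weight `ψ(T) + G(T) Φ(|x - y|²)`, `T = ν·(x + y)`
-/

open Set Filter
open scoped ContDiff Topology

noncomputable section

namespace Vale.Agent.P088.R2.H406.Z

open Vale.Agent.P088.LR Vale.Agent.P088.HY
open Vale.Agent.P088.R2.H644
open Vale.Agent.P088.R2.H205.CP (lx ly hν s2)
open Vale.Agent.P088.R2.H406.C (Sx Sxy)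

variable {n : ℕ}

/-! ### Sums of squares -/

/-- `δ_il`. -/
def dl (i l : Fin n) : ℝ := if l = i then 1 else 0

theorem sum_dl (i : Fin n) (F : Fin n → ℝ) : ∑ l, dl i l * F l = F i := by
  simp [dl]

theorem sum_sq_in (i : Fin n) (ν q : V n) (A B c : ℝ) :
    ∑ l, (A * ν l + B * q l + c * dl i l) ^ 2 = A ^ 2 * (∑ l, ν l ^ 2) +
      B ^ 2 * (∑ l, q l ^ 2) + c ^ 2 + 2 * (A * B) * (∑ l, ν l * q l) + 2 * (c * A) * ν i +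
      2 * (c * B) * q i := by
  have h : ∀ l, (A * ν l + B * q l + c * dl i l) ^ 2 = A ^ 2 * ν l ^ 2 + B ^ 2 * q l ^ 2 +
      dl i l * (c ^ 2) + 2 * (A * B) * (ν l * q l) + dl i l * (2 * (c * A) * ν l) +
      dl i l * (2 * (c * B) * q l) := by
    intro l
    have h2 : dl i l ^ 2 = dl i l := by unfold dl; split_ifs <;> norm_num
    linear_combination c ^ 2 * h2
  simp only [h, Finset.sum_add_distrib, sum_dl, ← Finset.mul_sum]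

theorem sum_sq (ν q : V n) (h0 : ∑ l, ν l ^ 2 = 1) (k α β μ c : ℝ) :
    ∑ i, ∑ l, (k * (ν i * ν l) + α * (ν i * q l) + β * (q i * ν l) +
      μ * (q i * q l) + c * dl i l) ^ 2 =
    k ^ 2 + (α ^ 2 + β ^ 2) * (∑ l, q l ^ 2) + μ ^ 2 * (∑ l, q l ^ 2) ^ 2 + c ^ 2 * n +
      2 * k * (α + β) * (∑ l, ν l * q l) + 2 * (k * μ + α * β) * (∑ l, ν l * q l) ^ 2 +
      2 * (k * c) + 2 * (α + β) * (μ * (∑ l, q l ^ 2) + c) * (∑ l, ν l * q l) +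
      2 * (μ * c) * ∑ l, q l ^ 2 := by
  have h : ∀ i l, k * (ν i * ν l) + α * (ν i * q l) + β * (q i * ν l) +
      μ * (q i * q l) + c * dl i l = (k * ν i + β * q i) * ν l +
      (α * ν i + μ * q i) * q l + c * dl i l := fun i l => by ring
  simp only [h, sum_sq_in, h0]
  set s := ∑ l, q l ^ 2 with hs
  set p := ∑ l, ν l * q l with hp
  have h2 : ∀ i, (k * ν i + β * q i) ^ 2 * 1 + (α * ν i + μ * q i) ^ 2 * s + c ^ 2 +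
      2 * ((k * ν i + β * q i) * (α * ν i + μ * q i)) * p +
      2 * (c * (k * ν i + β * q i)) * ν i + 2 * (c * (α * ν i + μ * q i)) * q i =
      (k ^ 2 + α ^ 2 * s + 2 * (k * α) * p + 2 * (c * k)) * ν i ^ 2 +
      (2 * k * β + 2 * α * μ * s + 2 * (k * μ + β * α) * p + 2 * c * β + 2 * c * α) *
        (ν i * q i) + (β ^ 2 + μ ^ 2 * s + 2 * (β * μ) * p + 2 * (c * μ)) * q i ^ 2 +
      c ^ 2 := by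
    intro i
    ring
  simp only [h2, Finset.sum_add_distrib, ← Finset.mul_sum, ← hs, ← hp, h0, Finset.sum_const,
    Finset.card_univ, Fintype.card_fin, nsmul_eq_mul]
  ring

/-! ### The weight -/

/-- The weight. -/
def Wz (ν : V n) (ψ G Φ : ℕ → ℝ → ℝ) (z : VV n) : ℝ :=
  ψ 0 (hν ν z) + G 0 (hν ν z) * Φ 0 (qq z)

section wz

variable {ψ G Φ : ℕ → ℝ → ℝ} {ν : V n}

theorem hd_one (s : ℝ) : HasDerivAt (fun _ : ℝ => (1 : ℝ)) 0 s := hasDerivAt_const s 1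

theorem hd_zero (s : ℝ) : HasDerivAt (fun _ : ℝ => (0 : ℝ)) 0 s := hasDerivAt_const s 0

theorem Wz_eq (ν : V n) (ψ G Φ : ℕ → ℝ → ℝ) :
    (Wz ν ψ G Φ : VV n → ℝ) = fun z => t0 ν (ψ 0) (fun _ => 1) z + t0 ν (G 0) (Φ 0) z := by
  funext z
  simp [Wz, t0]

theorem sm_t0 {h k : ℝ → ℝ} (hh : ContDiff ℝ ∞ h) (hk : ContDiff ℝ ∞ k) (ν : V n) :
    ContDiff ℝ ∞ (t0 ν h k : VV n → ℝ) :=
  (hh.comp (contDiff_hν ν)).mul (contDiff_rad hk)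

theorem sm_tn {h k : ℝ → ℝ} (hh : ContDiff ℝ ∞ h) (hk : ContDiff ℝ ∞ k) (ν : V n) :
    ContDiff ℝ ∞ (tn ν h k : VV n → ℝ) :=
  (hh.comp (contDiff_hν ν)).mul ((contDiff_rad hk).mul (contDiff_qn ν))

theorem lpk_d (hΦ : Chn Φ) (m : ℝ) (k : ℕ) (s : ℝ) :
    HasDerivAt (lpk m (Φ k) (Φ (k + 1))) (lpk (m + 4) (Φ (k + 1)) (Φ (k + 2)) s) s := by
  have h := (((hasDerivAt_id s).const_mul 4).mul (hΦ.d (k + 1) s)).add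
    ((hΦ.d k s).const_mul m)
  have e : lpk (m + 4) (Φ (k + 1)) (Φ (k + 2)) s =
      4 * 1 * Φ (k + 1) s + 4 * id s * Φ (k + 1 + 1) s + m * Φ (k + 1) s := by
    unfold lpk
    simp only [id]
    ring
  rw [e]
  exact h

theorem sm_lpk (hΦ : Chn Φ) (m : ℝ) (k : ℕ) : ContDiff ℝ ∞ (lpk m (Φ k) (Φ (k + 1))) :=
  ((contDiff_const.mul contDiff_id).mul (hΦ.sm _)).add (contDiff_const.mul (hΦ.sm _))

theorem smooth_Wz (ν : V n) (hψ : Chn ψ) (hG : Chn G) (hΦ : Chn Φ) :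
    ContDiff ℝ ∞ (Wz ν ψ G Φ : VV n → ℝ) :=
  ((hψ.sm 0).comp (contDiff_hν ν)).add (((hG.sm 0).comp (contDiff_hν ν)).mul
    (contDiff_rad (hΦ.sm 0)))

/-- `∂_{x_i} W`. -/
theorem dx_Wz (hψ : Chn ψ) (hG : Chn G) (hΦ : Chn Φ) (ν : V n) (i : Fin n) :
    dx i (Wz ν ψ G Φ : VV n → ℝ) = fun z => ν i * ψ 1 (hν ν z) +
      (ν i * t0 ν (G 1) (Φ 0) z + 2 * t1 ν i (G 0) (Φ 1) z) := by
  funext z
  rw [Wz_eq, dx_eq, ((HD_t0 (hψ.d 0) hd_one _ z ν).add (HD_t0 (hG.d 0) (hΦ.d 0) _ z ν)).e,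
    ← dx_eq, dx_qq]
  simp only [vν_single, vν_zero, t0, t1]
  ring

theorem dy_Wz (hψ : Chn ψ) (hG : Chn G) (hΦ : Chn Φ) (ν : V n) (i : Fin n) :
    dy i (Wz ν ψ G Φ : VV n → ℝ) = fun z => ν i * ψ 1 (hν ν z) +
      (ν i * t0 ν (G 1) (Φ 0) z + -2 * t1 ν i (G 0) (Φ 1) z) := by
  funext z
  rw [Wz_eq, dy_eq, ((HD_t0 (hψ.d 0) hd_one _ z ν).add (HD_t0 (hG.d 0) (hΦ.d 0) _ z ν)).e,
    ← dy_eq, dy_qq]
  simp only [vν_single, vν_zero, t0, t1]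
  ring

theorem HD_dx_Wz (hψ : Chn ψ) (hG : Chn G) (hΦ : Chn Φ) (v z : VV n) (ν : V n) (i : Fin n) :
    HD v (dx i (Wz ν ψ G Φ)) (ν i * (ψ 2 (hν ν z) * (vν ν v.1 + vν ν v.2)) +
      (ν i * (G 2 (hν ν z) * (vν ν v.1 + vν ν v.2) * Φ 0 (qq z) +
        G 1 (hν ν z) * (Φ 1 (qq z) * dd v qq z)) +
      2 * (G 1 (hν ν z) * (vν ν v.1 + vν ν v.2) * (Φ 1 (qq z) * qv i z) + G 0 (hν ν z) *
        (Φ 2 (qq z) * dd v qq z * qv i z + Φ 1 (qq z) * (v.1 i - v.2 i))))) z := by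
  rw [dx_Wz hψ hG hΦ]
  exact ((((HD_hν v z ν).comp (hψ.d 1 _)).cmul (ν i))).add
    (((HD_t0 (hG.d 1) (hΦ.d 0) v z ν).cmul (ν i)).add
      ((HD_t1 (hG.d 0) (hΦ.d 1) v z ν i).cmul 2))

theorem HD_dy_Wz (hψ : Chn ψ) (hG : Chn G) (hΦ : Chn Φ) (v z : VV n) (ν : V n) (i : Fin n) :
    HD v (dy i (Wz ν ψ G Φ)) (ν i * (ψ 2 (hν ν z) * (vν ν v.1 + vν ν v.2)) +
      (ν i * (G 2 (hν ν z) * (vν ν v.1 + vν ν v.2) * Φ 0 (qq z) +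
        G 1 (hν ν z) * (Φ 1 (qq z) * dd v qq z)) +
      -2 * (G 1 (hν ν z) * (vν ν v.1 + vν ν v.2) * (Φ 1 (qq z) * qv i z) + G 0 (hν ν z) *
        (Φ 2 (qq z) * dd v qq z * qv i z + Φ 1 (qq z) * (v.1 i - v.2 i))))) z := by
  rw [dy_Wz hψ hG hΦ]
  exact ((((HD_hν v z ν).comp (hψ.d 1 _)).cmul (ν i))).add
    (((HD_t0 (hG.d 1) (hΦ.d 0) v z ν).cmul (ν i)).add
      ((HD_t1 (hG.d 0) (hΦ.d 1) v z ν i).cmul (-2)))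

/-- The Hessian form. -/
theorem hs_Wz (hψ : Chn ψ) (hG : Chn G) (hΦ : Chn Φ) (v z : VV n) (ν : V n) :
    hs (Wz ν ψ G Φ) v z = (ψ 2 (hν ν z) + G 2 (hν ν z) * Φ 0 (qq z)) *
        (vν ν v.1 + vν ν v.2) ^ 2 +
      4 * (G 1 (hν ν z) * Φ 1 (qq z)) * ((vν ν v.1 + vν ν v.2) *
        (qdot z v.1 - qdot z v.2)) +
      4 * (G 0 (hν ν z) * Φ 2 (qq z)) * (qdot z v.1 - qdot z v.2) ^ 2 +
      2 * (G 0 (hν ν z) * Φ 1 (qq z)) * s2 (v.1 - v.2) := by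
  unfold hs
  simp only [(HD_dx_Wz hψ hG hΦ v z ν _).e, (HD_dy_Wz hψ hG hΦ v z ν _).e]
  set τ := vν ν v.1 + vν ν v.2 with hτ
  set P := ψ 2 (hν ν z) * τ + (G 2 (hν ν z) * τ * Φ 0 (qq z) +
        G 1 (hν ν z) * (Φ 1 (qq z) * dd v qq z)) with hP
  set Q := 2 * (G 1 (hν ν z) * τ * Φ 1 (qq z) +
    G 0 (hν ν z) * (Φ 2 (qq z) * dd v qq z)) with hQ
  set R := 2 * (G 0 (hν ν z) * Φ 1 (qq z)) with hR
  have e1 : ∀ i, v.1 i * (ν i * (ψ 2 (hν ν z) * τ) +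
      (ν i * (G 2 (hν ν z) * τ * Φ 0 (qq z) +
        G 1 (hν ν z) * (Φ 1 (qq z) * dd v qq z)) +
      2 * (G 1 (hν ν z) * τ * (Φ 1 (qq z) * qv i z) + G 0 (hν ν z) *
        (Φ 2 (qq z) * dd v qq z * qv i z + Φ 1 (qq z) * (v.1 i - v.2 i))))) =
      P * (ν i * v.1 i) + Q * (qv i z * v.1 i) + R * (v.1 i * (v.1 i - v.2 i)) := by
    intro i; rw [hP, hQ, hR]; ring
  have e2 : ∀ i, v.2 i * (ν i * (ψ 2 (hν ν z) * τ) +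
      (ν i * (G 2 (hν ν z) * τ * Φ 0 (qq z) +
        G 1 (hν ν z) * (Φ 1 (qq z) * dd v qq z)) +
      -2 * (G 1 (hν ν z) * τ * (Φ 1 (qq z) * qv i z) + G 0 (hν ν z) *
        (Φ 2 (qq z) * dd v qq z * qv i z + Φ 1 (qq z) * (v.1 i - v.2 i))))) =
      P * (ν i * v.2 i) + -Q * (qv i z * v.2 i) + -R * (v.2 i * (v.1 i - v.2 i)) := by
    intro i; rw [hP, hQ, hR]; ring
  simp only [e1, e2, Finset.sum_add_distrib, ← Finset.mul_sum]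
  have e3 : s2 (v.1 - v.2) = ∑ i, v.1 i * (v.1 i - v.2 i) - ∑ i, v.2 i * (v.1 i - v.2 i) := by
    unfold s2
    rw [← Finset.sum_sub_distrib]
    refine Finset.sum_congr rfl fun i _ => ?_
    simp only [Pi.sub_apply]
    ring
  have e4 : ∑ i, qv i z * v.1 i = qdot z v.1 := rfl
  have e5 : ∑ i, qv i z * v.2 i = qdot z v.2 := rfl
  have e6 : ∑ i, ν i * v.1 i = vν ν v.1 := rfl
  have e7 : ∑ i, ν i * v.2 i = vν ν v.2 := rfl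
  rw [e3, e4, e5, e6, e7, hP, hQ, hR, dd_qq', hτ]
  ring

/-! ### The square of the Hessian -/

/-- `k = ψ'' + G'' Φ`. -/
def ck (ν : V n) (ψ G Φ : ℕ → ℝ → ℝ) (z : VV n) : ℝ :=
  ψ 2 (hν ν z) + G 2 (hν ν z) * Φ 0 (qq z)

/-- `α = 2 G' Φ'`. -/
def cα (ν : V n) (G Φ : ℕ → ℝ → ℝ) (z : VV n) : ℝ := 2 * (G 1 (hν ν z) * Φ 1 (qq z))

/-- `μ = 4 G Φ''`. -/
def cμ (ν : V n) (G Φ : ℕ → ℝ → ℝ) (z : VV n) : ℝ := 4 * (G 0 (hν ν z) * Φ 2 (qq z))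

/-- `2 G Φ'`. -/
def cν (ν : V n) (G Φ : ℕ → ℝ → ℝ) (z : VV n) : ℝ := 2 * (G 0 (hν ν z) * Φ 1 (qq z))

theorem single_dl (i l : Fin n) : (Pi.single i 1 : V n) l = dl i l := by
  simp [dl, Pi.single_apply]

theorem dxx_Wz (hψ : Chn ψ) (hG : Chn G) (hΦ : Chn Φ) (ν : V n) (i l : Fin n) (z : VV n) :
    dx i (dx l (Wz ν ψ G Φ)) z = ck ν ψ G Φ z * (ν i * ν l) +
      cα ν G Φ z * (ν i * qv l z) + cα ν G Φ z * (qv i z * ν l) +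
      cμ ν G Φ z * (qv i z * qv l z) + cν ν G Φ z * dl i l := by
  rw [dx_eq, (HD_dx_Wz hψ hG hΦ _ z ν l).e, ← dx_eq, dx_qq]
  simp only [vν_single, vν_zero, single_dl, Pi.zero_apply, ck, cα, cμ, cν]
  ring

theorem dyy_Wz (hψ : Chn ψ) (hG : Chn G) (hΦ : Chn Φ) (ν : V n) (i l : Fin n) (z : VV n) :
    dy i (dy l (Wz ν ψ G Φ)) z = ck ν ψ G Φ z * (ν i * ν l) +
      -cα ν G Φ z * (ν i * qv l z) + -cα ν G Φ z * (qv i z * ν l) +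
      cμ ν G Φ z * (qv i z * qv l z) + cν ν G Φ z * dl i l := by
  rw [dy_eq, (HD_dy_Wz hψ hG hΦ _ z ν l).e, ← dy_eq, dy_qq]
  simp only [vν_single, vν_zero, single_dl, Pi.zero_apply, ck, cα, cμ, cν]
  ring

theorem dxy_Wz (hψ : Chn ψ) (hG : Chn G) (hΦ : Chn Φ) (ν : V n) (i l : Fin n) (z : VV n) :
    dx i (dy l (Wz ν ψ G Φ)) z = ck ν ψ G Φ z * (ν i * ν l) +
      -cα ν G Φ z * (ν i * qv l z) + cα ν G Φ z * (qv i z * ν l) +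
      -cμ ν G Φ z * (qv i z * qv l z) + -cν ν G Φ z * dl i l := by
  rw [dx_eq, (HD_dy_Wz hψ hG hΦ _ z ν l).e, ← dx_eq, dx_qq]
  simp only [vν_single, vν_zero, single_dl, Pi.zero_apply, ck, cα, cμ, cν]
  ring

theorem sxx_Wz (hψ : Chn ψ) (hG : Chn G) (hΦ : Chn Φ) (h0 : s2 ν = 1) (z : VV n) :
    ∑ i, ∑ l, dx i (dx l (Wz ν ψ G Φ)) z ^ 2 = Sx (ck ν ψ G Φ z)
      (cα ν G Φ z) (cμ ν G Φ z) (cν ν G Φ z) (qn ν z) (qq z) n := by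
  simp only [dxx_Wz hψ hG hΦ]
  rw [sum_sq ν (fun i => qv i z) h0]
  rfl

theorem syy_Wz (hψ : Chn ψ) (hG : Chn G) (hΦ : Chn Φ) (h0 : s2 ν = 1) (z : VV n) :
    ∑ i, ∑ l, dy i (dy l (Wz ν ψ G Φ)) z ^ 2 = Sx (ck ν ψ G Φ z)
      (-cα ν G Φ z) (cμ ν G Φ z) (cν ν G Φ z) (qn ν z) (qq z) n := by
  simp only [dyy_Wz hψ hG hΦ]
  rw [sum_sq ν (fun i => qv i z) h0]
  rfl

theorem sxy_Wz (hψ : Chn ψ) (hG : Chn G) (hΦ : Chn Φ) (h0 : s2 ν = 1) (z : VV n) :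
    ∑ i, ∑ l, dx i (dy l (Wz ν ψ G Φ)) z ^ 2 = Sxy (ck ν ψ G Φ z)
      (cα ν G Φ z) (cμ ν G Φ z) (cν ν G Φ z) (qn ν z) (qq z) n := by
  simp only [dxy_Wz hψ hG hΦ]
  rw [sum_sq ν (fun i => qv i z) h0]
  rfl

/-! ### The Laplacians -/

/-- `Δ_q Φ`. -/
def l1 (n : ℕ) (Φ : ℕ → ℝ → ℝ) : ℝ → ℝ := lpk (2 * n) (Φ 1) (Φ 2)

/-- `(Δ_q Φ)'`. -/
def l2 (n : ℕ) (Φ : ℕ → ℝ → ℝ) : ℝ → ℝ := lpk (2 * n + 4) (Φ 2) (Φ 3)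

/-- `(Δ_q Φ)''`. -/
def l3 (n : ℕ) (Φ : ℕ → ℝ → ℝ) : ℝ → ℝ := lpk (2 * n + 8) (Φ 3) (Φ 4)

/-- `Δ_q² Φ`. -/
def l4 (n : ℕ) (Φ : ℕ → ℝ → ℝ) : ℝ → ℝ := lpk (2 * n) (l2 n Φ) (l3 n Φ)

theorem hl1 (hΦ : Chn Φ) (s : ℝ) : HasDerivAt (l1 n Φ) (l2 n Φ s) s :=
  lpk_d hΦ _ 1 s

theorem hl2 (hΦ : Chn Φ) (s : ℝ) : HasDerivAt (l2 n Φ) (l3 n Φ s) s := by
  have h := lpk_d hΦ (2 * n + 4) 2 s
  unfold l2 l3
  rw [show (2 * (n : ℝ) + 8) = 2 * n + 4 + 4 by ring]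
  exact h

theorem sm_l1 (hΦ : Chn Φ) : ContDiff ℝ ∞ (l1 n Φ) := sm_lpk hΦ _ 1

/-- `Λ_x W`. -/
theorem lx_Wz (hψ : Chn ψ) (hG : Chn G) (hΦ : Chn Φ) (h0 : s2 ν = 1) :
    lx (Wz ν ψ G Φ) = fun z => t0 ν (ψ 2) (fun _ => 1) z +
      ((t0 ν (G 2) (Φ 0) z + t0 ν (G 0) (l1 n Φ) z) + 4 * tn ν (G 1) (Φ 1) z) := by
  have s3 : ContDiff ℝ ∞ (t0 ν (ψ 0) (fun _ => 1) : VV n → ℝ) := sm_t0 (hψ.sm 0) contDiff_const ν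
  have s4 := sm_t0 (n := n) (hG.sm 0) (hΦ.sm 0) ν
  rw [Wz_eq, lx_add s3 s4, lx_t0 (hψ.d 0) (hψ.d 1) hd_one hd_zero h0,
    lx_t0 (hG.d 0) (hG.d 1) (hΦ.d 0) (hΦ.d 1) h0]
  funext z
  simp only [t0, tn, lpk, l1]
  ring

/-- `Λ_y W`. -/
theorem ly_Wz (hψ : Chn ψ) (hG : Chn G) (hΦ : Chn Φ) (h0 : s2 ν = 1) :
    ly (Wz ν ψ G Φ) = fun z => t0 ν (ψ 2) (fun _ => 1) z +
      ((t0 ν (G 2) (Φ 0) z + t0 ν (G 0) (l1 n Φ) z) + -4 * tn ν (G 1) (Φ 1) z) := by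
  have s3 : ContDiff ℝ ∞ (t0 ν (ψ 0) (fun _ => 1) : VV n → ℝ) := sm_t0 (hψ.sm 0) contDiff_const ν
  have s4 := sm_t0 (n := n) (hG.sm 0) (hΦ.sm 0) ν
  rw [Wz_eq, ly_add s3 s4, ly_t0 (hψ.d 0) (hψ.d 1) hd_one hd_zero h0,
    ly_t0 (hG.d 0) (hG.d 1) (hΦ.d 0) (hΦ.d 1) h0]
  funext z
  simp only [t0, tn, lpk, l1]
  ring

theorem sm_c4 {f : VV n → ℝ} (c : ℝ) (hf : ContDiff ℝ ∞ f) : ContDiff ℝ ∞ fun z => c * f z :=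
  contDiff_const.mul hf

theorem lxx_Wz (hψ : Chn ψ) (hG : Chn G) (hΦ : Chn Φ) (h0 : s2 ν = 1) (z : VV n) :
    lx (lx (Wz ν ψ G Φ)) z = 0 + ψ 4 (hν ν z) +
      (G 4 (hν ν z) * Φ 0 (qq z) + 4 * (G 3 (hν ν z) * (Φ 1 (qq z) * qn ν z)) +
        G 2 (hν ν z) * l1 n Φ (qq z)) +
      4 * (G 3 (hν ν z) * (Φ 1 (qq z) * qn ν z) +
        4 * (G 2 (hν ν z) * (Φ 2 (qq z) * qn ν z * qn ν z)) +
        2 * (G 2 (hν ν z) * Φ 1 (qq z)) + G 1 (hν ν z) * (l2 n Φ (qq z) * qn ν z)) +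
      (G 2 (hν ν z) * l1 n Φ (qq z) + 4 * (G 1 (hν ν z) * (l2 n Φ (qq z) * qn ν z)) +
        G 0 (hν ν z) * l4 n Φ (qq z)) := by
  have s3 : ContDiff ℝ ∞ (t0 ν (ψ 2) (fun _ => 1) : VV n → ℝ) := sm_t0 (hψ.sm 2) contDiff_const ν
  have s4 := sm_t0 (n := n) (hG.sm 2) (hΦ.sm 0) ν
  have s5 := sm_t0 (n := n) (hG.sm 0) (sm_l1 (n := n) hΦ) ν
  have s6 := sm_tn (n := n) (hG.sm 1) (hΦ.sm 1) ν
  rw [lx_Wz hψ hG hΦ h0, lx_add s3 ((s4.add s5).add (sm_c4 4 s6)),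
    lx_add (s4.add s5) (sm_c4 4 s6), lx_add s4 s5,
    lx_cmul 4 s6, lx_t0 (hψ.d 2) (hψ.d 3) hd_one hd_zero h0,
    lx_t0 (hG.d 2) (hG.d 3) (hΦ.d 0) (hΦ.d 1) h0, lx_t0 (hG.d 0) (hG.d 1) (hl1 hΦ) (hl2 hΦ) h0,
    lx_tn (hG.d 1) (hG.d 2) (hΦ.d 1) (hΦ.d 2) h0]
  simp only [t0, tn, l1, l2, l4, lpk]
  ring

theorem lxy_Wz (hψ : Chn ψ) (hG : Chn G) (hΦ : Chn Φ) (h0 : s2 ν = 1) (z : VV n) :
    lx (ly (Wz ν ψ G Φ)) z = ψ 4 (hν ν z) +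
      (G 4 (hν ν z) * Φ 0 (qq z) + 4 * (G 3 (hν ν z) * (Φ 1 (qq z) * qn ν z)) +
        G 2 (hν ν z) * l1 n Φ (qq z)) -
      4 * (G 3 (hν ν z) * (Φ 1 (qq z) * qn ν z) +
        4 * (G 2 (hν ν z) * (Φ 2 (qq z) * qn ν z * qn ν z)) +
        2 * (G 2 (hν ν z) * Φ 1 (qq z)) + G 1 (hν ν z) * (l2 n Φ (qq z) * qn ν z)) +
      (G 2 (hν ν z) * l1 n Φ (qq z) + 4 * (G 1 (hν ν z) * (l2 n Φ (qq z) * qn ν z)) +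
        G 0 (hν ν z) * l4 n Φ (qq z)) := by
  have s3 : ContDiff ℝ ∞ (t0 ν (ψ 2) (fun _ => 1) : VV n → ℝ) := sm_t0 (hψ.sm 2) contDiff_const ν
  have s4 := sm_t0 (n := n) (hG.sm 2) (hΦ.sm 0) ν
  have s5 := sm_t0 (n := n) (hG.sm 0) (sm_l1 (n := n) hΦ) ν
  have s6 := sm_tn (n := n) (hG.sm 1) (hΦ.sm 1) ν
  rw [ly_Wz hψ hG hΦ h0, lx_add s3 ((s4.add s5).add (sm_c4 (-4) s6)),
    lx_add (s4.add s5) (sm_c4 (-4) s6), lx_add s4 s5,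
    lx_cmul (-4) s6, lx_t0 (hψ.d 2) (hψ.d 3) hd_one hd_zero h0,
    lx_t0 (hG.d 2) (hG.d 3) (hΦ.d 0) (hΦ.d 1) h0, lx_t0 (hG.d 0) (hG.d 1) (hl1 hΦ) (hl2 hΦ) h0,
    lx_tn (hG.d 1) (hG.d 2) (hΦ.d 1) (hΦ.d 2) h0]
  simp only [t0, tn, l1, l2, l4, lpk]
  ring

theorem lyy_Wz (hψ : Chn ψ) (hG : Chn G) (hΦ : Chn Φ) (h0 : s2 ν = 1) (z : VV n) :
    ly (ly (Wz ν ψ G Φ)) z = 0 + ψ 4 (hν ν z) +
      (G 4 (hν ν z) * Φ 0 (qq z) - 4 * (G 3 (hν ν z) * (Φ 1 (qq z) * qn ν z)) +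
        G 2 (hν ν z) * l1 n Φ (qq z)) -
      4 * (G 3 (hν ν z) * (Φ 1 (qq z) * qn ν z) -
        4 * (G 2 (hν ν z) * (Φ 2 (qq z) * qn ν z * qn ν z)) -
        2 * (G 2 (hν ν z) * Φ 1 (qq z)) + G 1 (hν ν z) * (l2 n Φ (qq z) * qn ν z)) +
      (G 2 (hν ν z) * l1 n Φ (qq z) - 4 * (G 1 (hν ν z) * (l2 n Φ (qq z) * qn ν z)) +
        G 0 (hν ν z) * l4 n Φ (qq z)) := by
  have s3 : ContDiff ℝ ∞ (t0 ν (ψ 2) (fun _ => 1) : VV n → ℝ) := sm_t0 (hψ.sm 2) contDiff_const ν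
  have s4 := sm_t0 (n := n) (hG.sm 2) (hΦ.sm 0) ν
  have s5 := sm_t0 (n := n) (hG.sm 0) (sm_l1 (n := n) hΦ) ν
  have s6 := sm_tn (n := n) (hG.sm 1) (hΦ.sm 1) ν
  rw [ly_Wz hψ hG hΦ h0, ly_add s3 ((s4.add s5).add (sm_c4 (-4) s6)),
    ly_add (s4.add s5) (sm_c4 (-4) s6), ly_add s4 s5,
    ly_cmul (-4) s6, ly_t0 (hψ.d 2) (hψ.d 3) hd_one hd_zero h0,
    ly_t0 (hG.d 2) (hG.d 3) (hΦ.d 0) (hΦ.d 1) h0, ly_t0 (hG.d 0) (hG.d 1) (hl1 hΦ) (hl2 hΦ) h0,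
    ly_tn (hG.d 1) (hG.d 2) (hΦ.d 1) (hΦ.d 2) h0]
  simp only [t0, tn, l1, l2, l4, lpk]
  ring

/-! ### Directional derivatives of the Laplacians -/

theorem dd_lx (hψ : Chn ψ) (hG : Chn G) (hΦ : Chn Φ) (h0 : s2 ν = 1) (v z : VV n) :
    dd v (lx (Wz ν ψ G Φ)) z = ψ 3 (hν ν z) * (vν ν v.1 + vν ν v.2) +
      (G 3 (hν ν z) * (vν ν v.1 + vν ν v.2) * Φ 0 (qq z) +
        G 2 (hν ν z) * (Φ 1 (qq z) * (2 * (qdot z v.1 - qdot z v.2))) +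
        G 1 (hν ν z) * (vν ν v.1 + vν ν v.2) * l1 n Φ (qq z) +
        G 0 (hν ν z) * (l2 n Φ (qq z) * (2 * (qdot z v.1 - qdot z v.2)))) +
      4 * (G 2 (hν ν z) * (vν ν v.1 + vν ν v.2) * (Φ 1 (qq z) * qn ν z) +
        G 1 (hν ν z) * (Φ 2 (qq z) * (2 * (qdot z v.1 - qdot z v.2)) * qn ν z +
          Φ 1 (qq z) * (vν ν v.1 - vν ν v.2))) := by
  have h := (HD_t0 (hψ.d 2) hd_one v z ν).add
    (((HD_t0 (hG.d 2) (hΦ.d 0) v z ν).add (HD_t0 (hG.d 0) (hl1 (n := n) hΦ) v z ν)).add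
      ((HD_tn (hG.d 1) (hΦ.d 1) v z ν).cmul 4))
  rw [lx_Wz hψ hG hΦ h0, h.e, dd_qq']
  ring

theorem dd_ly (hψ : Chn ψ) (hG : Chn G) (hΦ : Chn Φ) (h0 : s2 ν = 1) (v z : VV n) :
    dd v (ly (Wz ν ψ G Φ)) z = ψ 3 (hν ν z) * (vν ν v.1 + vν ν v.2) +
      (G 3 (hν ν z) * (vν ν v.1 + vν ν v.2) * Φ 0 (qq z) +
        G 2 (hν ν z) * (Φ 1 (qq z) * (2 * (qdot z v.1 - qdot z v.2))) +
        G 1 (hν ν z) * (vν ν v.1 + vν ν v.2) * l1 n Φ (qq z) +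
        G 0 (hν ν z) * (l2 n Φ (qq z) * (2 * (qdot z v.1 - qdot z v.2)))) -
      4 * (G 2 (hν ν z) * (vν ν v.1 + vν ν v.2) * (Φ 1 (qq z) * qn ν z) +
        G 1 (hν ν z) * (Φ 2 (qq z) * (2 * (qdot z v.1 - qdot z v.2)) * qn ν z +
          Φ 1 (qq z) * (vν ν v.1 - vν ν v.2))) := by
  have h := (HD_t0 (hψ.d 2) hd_one v z ν).add
    (((HD_t0 (hG.d 2) (hΦ.d 0) v z ν).add (HD_t0 (hG.d 0) (hl1 (n := n) hΦ) v z ν)).add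
      ((HD_tn (hG.d 1) (hΦ.d 1) v z ν).cmul (-4)))
  rw [ly_Wz hψ hG hΦ h0, h.e, dd_qq']
  ring

end wz

end Vale.Agent.P088.R2.H406.Z
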