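import Vale.Agent.P088.R2.H406.Z.Gen

/-!
# P088, zone C: the lower bound of the quantum terms of the weight `ψ(T) + G(T) Φ(|x - y|²)`
-/

open Set Filter
open scoped ContDiff Topology

noncomputable section

namespace Vale.Agent.P088.R2.H406.Z

open Vale.Agent.P088.LR Vale.Agent.P088.HY
open Vale.Agent.P088.R2.H644
open Vale.Agent.P088.R2.H205.CP (lx ly hν s2 q0 st)
open Vale.Agent.P088.R2.H406.C (Sx Sxy BT BH mb qlow)

variable {n : ℕ} {ψ G Φ : ℕ → ℝ → ℝ} {ν : V n}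

theorem q0_eq (W : VV n → ℝ) (U V : V n) (x y : ℝ) (z : VV n) : q0 W U V x y z =
    -(8 * ((∑ i, ∑ l, dx i (dx l W) z ^ 2) * x ^ 2 +
      2 * ((∑ i, ∑ k, dx i (dy k W) z ^ 2) * (x * y)) +
      (∑ i, ∑ l, dy i (dy l W) z ^ 2) * y ^ 2)) -
    8 * (x * dd (U, V) (lx W) z + y * dd (U, V) (ly W) z) +
    2 * (lx (lx W) z * x ^ 2 + 2 * (lx (ly W) z * (x * y)) + ly (ly W) z * y ^ 2) := by
  unfold q0
  rw [dd_split, dd_split]
  have e1 : ∀ (h : VV n → ℝ) (A : Fin n → ℝ), ∑ j, A j * dx j h z = ∑ j, dx j h z * A j :=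
    fun h A => Finset.sum_congr rfl fun j _ => mul_comm _ _
  have e2 : ∀ (h : VV n → ℝ) (A : Fin n → ℝ), ∑ j, A j * dy j h z = ∑ j, dy j h z * A j :=
    fun h A => Finset.sum_congr rfl fun j _ => mul_comm _ _
  simp only [e1, e2]
  ring

theorem cs_qdot (z : VV n) (A B : V n) : |qdot z A - qdot z B| ≤
    Real.sqrt (qq z) * Real.sqrt (s2 (A - B)) := by
  have e : qdot z A - qdot z B = ∑ i, qv i z * (A - B) i := by
    unfold qdot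
    rw [← Finset.sum_sub_distrib]
    exact Finset.sum_congr rfl fun i _ => by simp only [Pi.sub_apply]; ring
  rw [e, ← Real.sqrt_mul (qq_nonneg z), ← Real.sqrt_sq_eq_abs]
  refine Real.sqrt_le_sqrt ?_
  rw [qq_eq]
  exact Finset.sum_mul_sq_le_sq_mul_sq _ _ _

theorem cs_ν (h0 : s2 ν = 1) (A B : V n) : |vν ν A - vν ν B| ≤ Real.sqrt (s2 (A - B)) := by
  have e : vν ν A - vν ν B = ∑ i, ν i * (A - B) i := by
    unfold vν
    rw [← Finset.sum_sub_distrib]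
    exact Finset.sum_congr rfl fun i _ => by simp only [Pi.sub_apply]; ring
  rw [e, ← Real.sqrt_sq_eq_abs]
  refine Real.sqrt_le_sqrt ?_
  refine (Finset.sum_mul_sq_le_sq_mul_sq _ _ _).trans (le_of_eq ?_)
  have h1 : ∑ i, ν i ^ 2 = 1 := h0
  rw [h1, one_mul]
  rfl

theorem abs_qn_le (h0 : s2 ν = 1) (z : VV n) : |qn ν z| ≤ Real.sqrt (qq z) := by
  rw [← Real.sqrt_sq_eq_abs]
  refine Real.sqrt_le_sqrt ?_
  rw [qq_eq]
  refine (Finset.sum_mul_sq_le_sq_mul_sq _ _ _).trans (le_of_eq ?_)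
  have h1 : ∑ i, ν i ^ 2 = 1 := h0
  rw [h1, one_mul]

/-- The bounds at a point. `K`, `E` are the sizes of the slope and of the exponential. -/
structure PB (ν : V n) (ψ G Φ : ℕ → ℝ → ℝ) (K E M : ℝ) (z : VV n) : Prop where
  K0 : 0 ≤ K
  E0 : 0 ≤ E
  M1 : 1 ≤ M
  r1 : qq z ≤ 1
  p : ∀ k, 2 ≤ k → k ≤ 4 → |ψ k (hν ν z)| ≤ M * K
  g : ∀ k, k ≤ 4 → |G k (hν ν z)| ≤ M * E
  F0 : |Φ 0 (qq z)| ≤ M * qq z
  F1 : |Φ 1 (qq z)| ≤ M
  F2 : |Φ 2 (qq z)| ≤ M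
  L1 : |l1 n Φ (qq z)| ≤ M
  L2 : |l2 n Φ (qq z)| ≤ M
  L3 : |l4 n Φ (qq z)| ≤ M

section pb

variable {K E M : ℝ} {z : VV n}

theorem PB.bt (h : PB ν ψ G Φ K E M z) (h0 : s2 ν = 1) : BT 0 0 (ψ 3 (hν ν z))
    0 0 (ψ 4 (hν ν z)) (G 0 (hν ν z)) (G 1 (hν ν z)) (G 2 (hν ν z))
    (G 3 (hν ν z)) (G 4 (hν ν z)) (Φ 0 (qq z)) (Φ 1 (qq z)) (Φ 2 (qq z)) (l1 n Φ (qq z))
    (l2 n Φ (qq z)) (l4 n Φ (qq z)) (qn ν z) (Real.sqrt (qq z)) K E M := by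
  have mk : 0 ≤ M * K := mul_nonneg (by linarith [h.M1]) h.K0
  refine ⟨h.K0, h.E0, Real.sqrt_nonneg _, Real.sqrt_le_one.2 h.r1, h.M1, abs_qn_le h0 z, ?_, ?_,
    h.p 3 (by norm_num) (by norm_num), ?_, ?_, h.p 4 (by norm_num) (by norm_num),
    h.g 0 (by norm_num), h.g 1 (by norm_num), h.g 2 (by norm_num), h.g 3 (by norm_num),
    h.g 4 (by norm_num), ?_, h.F1, h.F2, h.L1, h.L2, h.L3⟩
  · rwa [abs_zero]
  · rwa [abs_zero]
  · rwa [abs_zero]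
  · rwa [abs_zero]
  · rw [Real.sq_sqrt (qq_nonneg z)]; exact h.F0

theorem PB.bh (h : PB ν ψ G Φ K E M z) (h0 : s2 ν = 1) : BH (ck ν ψ G Φ z)
    (ck ν ψ G Φ z) (ck ν ψ G Φ z) (cα ν G Φ z) (cμ ν G Φ z) (cν ν G Φ z)
    (qn ν z) (qq z) (Real.sqrt (qq z)) K E (2 * M ^ 2) := by
  have K0 := h.K0
  have E0 := h.E0
  have M1 := h.M1
  have M0 : 0 ≤ M := by linarith
  have MM : M ≤ M ^ 2 := by nlinarith
  have q0' := qq_nonneg z
  have hK : M * K ≤ M ^ 2 * K := mul_le_mul_of_nonneg_right MM K0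
  have hE : M * E ≤ M ^ 2 * E := mul_le_mul_of_nonneg_right MM E0
  have p := abs_le.1 (h.p 2 (by norm_num) (by norm_num))
  have g := abs_le.1 (mb (h.g 2 (by norm_num)) h.F0)
  have e1 : M * E * (M * qq z) = M ^ 2 * (E * qq z) := by ring
  rw [e1] at g
  have n1 : 0 ≤ M ^ 2 * K := by positivity
  have n2 : 0 ≤ M ^ 2 * (E * qq z) := by positivity
  have e2 : 2 * M ^ 2 * (K + E * qq z) = 2 * (M ^ 2 * K) + 2 * (M ^ 2 * (E * qq z)) := by ring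
  have ez : |ck ν ψ G Φ z| ≤ 2 * M ^ 2 * (K + E * qq z) := by
    unfold ck
    rw [e2, abs_le]
    constructor
    · linarith [p.1, g.1]
    · linarith [p.2, g.2]
  refine ⟨K0, E0, Real.sqrt_nonneg _, Real.sqrt_le_one.2 h.r1, (Real.sq_sqrt q0').symm,
    abs_qn_le h0 z, ez, ez, ez, ?_, ?_, ?_, ?_, ?_⟩
  · have := mb (h.g 1 (by norm_num)) h.F1
    unfold cα
    rw [abs_mul, abs_of_pos (by norm_num : (0 : ℝ) < 2)]
    nlinarith
  · have := mb (h.g 0 (by norm_num)) h.F2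
    unfold cμ
    rw [abs_mul, abs_of_pos (by norm_num : (0 : ℝ) < 4)]
    nlinarith
  · have := mb (h.g 0 (by norm_num)) h.F1
    unfold cν
    rw [abs_mul, abs_of_pos (by norm_num : (0 : ℝ) < 2)]
    nlinarith
  · rw [sub_self, abs_zero]
    have := Real.sqrt_nonneg (qq z)
    positivity
  · have e3 : ck ν ψ G Φ z + ck ν ψ G Φ z - 2 * ck ν ψ G Φ z = 0 := by ring
    rw [e3, abs_zero]
    positivity

/-- **The quantum terms of the general weight.** -/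
theorem q0_low (hψ : Chn ψ) (hG : Chn G) (hΦ : Chn Φ) (h : PB ν ψ G Φ K E M z)
    (h0 : s2 ν = 1) (A B : V n) (a b : ℝ) :
    -(32 * n * cν ν G Φ z ^ 2 * ((a + b) / 2) ^ 2) - 2048 * (M ^ 4 *
      ((K ^ 2 + K * E + E ^ 2 * qq z + K + E) * (((a + b) / 2) ^ 2 + ((a - b) / 2) ^ 2)) +
        M ^ 4 * ((K + E) ^ 2 * Real.sqrt (qq z) * (|(a + b) / 2| * |(a - b) / 2|)) +
        M ^ 4 * (((K + E) * |vν ν A + vν ν B| + E * Real.sqrt (qq z) *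
          Real.sqrt (s2 (A - B))) * |(a + b) / 2|) +
        M ^ 4 * ((K * |vν ν A + vν ν B| + E * Real.sqrt (qq z) * |vν ν A + vν ν B| +
          E * Real.sqrt (s2 (A - B))) * |(a - b) / 2|)) ≤
    q0 (Wz ν ψ G Φ) A B a b z := by
  have bt := h.bt h0
  have bh := h.bh h0
  have ho := cs_qdot z A B
  have hy := cs_ν h0 A B
  rw [q0_eq, sxx_Wz hψ hG hΦ h0, syy_Wz hψ hG hΦ h0, sxy_Wz hψ hG hΦ h0,
    lxx_Wz hψ hG hΦ h0, lxy_Wz hψ hG hΦ h0, lyy_Wz hψ hG hΦ h0]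
  refine qlow h.M1 h.K0 h.E0 (Real.sqrt_nonneg _) (qq_nonneg z) (abs_nonneg _)
    (Real.sqrt_nonneg _) bh.A bh.D bh.X ?_ ?_ bt.L.1 bt.L.2.1 bt.L.2.2
  · have t := bt.T1 (u := vν ν A + vν ν B) (v := 0) ho
    rw [abs_zero, add_zero |vν ν A + vν ν B|] at t
    refine le_trans (le_of_eq ?_) t
    rw [dd_lx hψ hG hΦ h0, dd_ly hψ hG hΦ h0]
    congr 1
    ring
  · have t := bt.T2 (u := vν ν A + vν ν B) (v := 0) ho hy
    rw [abs_zero, add_zero |vν ν A + vν ν B|] at t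
    refine le_trans (le_of_eq ?_) t
    rw [dd_lx hψ hG hΦ h0, dd_ly hψ hG hΦ h0]
    congr 1
    ring

end pb

end Vale.Agent.P088.R2.H406.Z
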