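import Vale.Agent.P088.R2.H406.Z.RowsC

/-!
# P088, zone C: region I, only the threshold depends on `Cd`
-/

open Set Filter
open scoped ContDiff Topology

noncomputable section

namespace Vale.Agent.P088.R2.H406.Z

open Vale.Agent.P088.LR Vale.Agent.P088.HY
open Vale.Agent.P088.R2.H644
open Vale.Agent.P088.R2.H205.CP (lx ly hν s2 q0 st WF PF Wg PD WD)
open Vale.Agent.P088.R2.H406.C (mb absQ absH finQ finIc)

variable {n : ℕ}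

/-- The Hessian. -/
theorem hs_low2 {Cs Cd ε η c c₀ : ℝ} {ν : V n} {w : WF} {p : PF} {I : Set ℝ} {z : VV n}
    (hp : PD Cs p) (hw : WD ε Cd w I) (hCs : 0 < Cs) (hε : ε ≤ 1)
    (hη : 0 < η) (hI : hν ν z ∈ I) (hr : qq z ≤ 4 * c₀ ^ 2) (hr1 : qq z ≤ 1)
    (hc₀ : 24 * MM n Cs 1 * c₀ ^ 2 ≤ η)
    (hc : c * (2 + 16 * MM n Cs 1 ^ 2 / η) ≤ 1 / 2)
    (ht : w.G (hν ν z) * qq z ≤ c * w.φ₂ (hν ν z)) (U V : V n) :
    4 * (w.φ₂ (hν ν z) * (vν ν U + vν ν V) ^ 2) +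
      8 * (1 - 2 * η) * (w.G (hν ν z) * s2 (U - V)) ≤ 8 * hs (Wg ν w p) (U, V) z := by
  have q0' := qq_nonneg z
  have M2 : 2 ≤ MM n Cs 1 := MM_ge hCs one_pos
  have CM : Cs ≤ MM n Cs 1 := by
    have n0 : (0 : ℝ) ≤ n := Nat.cast_nonneg n
    have nn : 0 ≤ (n : ℝ) ^ 2 * Cs := by positivity
    have nC : 0 ≤ (n : ℝ) * Cs := by positivity
    unfold MM
    nlinarith
  have K0 := hw.kp _ hI
  have E0 := hw.gp _ hI
  have b0 := hp.ps _ q0' hr1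
  have b1 := abs_le.1 (hp.b1 _ q0' hr1)
  have b2 := (hp.b2 _ q0' hr1).1
  have B1 : |p.Φ₁ (qq z)| ≤ MM n Cs 1 := by
    have pb := pb2_of (ν := ν) hp hw hCs hε hI hr1
    have := pb.F1
    rwa [(eP hp).1] at this
  have g1 := abs_of_rel E0 hε (hw.g1 _ hI)
  have g2 := abs_of_rel E0 hε (hw.g2 _ hI)
  have hω := cs_qdot z U V
  rw [Wg_Wz, hs_Wz (chn_it hw.sm) (chn_it hw.sg) (chn_it hp.sm), (eφ hw).2.1, (eG hw).1,
    (eG hw).2.1, (eP hp).1, (eP hp).2.1, it0, it0]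
  have key := absH (K := w.φ₂ (hν ν z)) (E := w.G (hν ν z)) (s := qq z) (M := MM n Cs 1)
    (η := η) (τ := vν ν U + vν ν V) (om := qdot z U - qdot z V) (Y := Real.sqrt (s2 (U - V)))
    (r := Real.sqrt (qq z)) (x2 := w.G₂ (hν ν z) * p.Φ (qq z))
    (x1 := w.G₁ (hν ν z) * p.Φ₁ (qq z)) (x0 := w.G (hν ν z) * p.Φ₂ (qq z))
    (x3 := w.G (hν ν z) * p.Φ₁ (qq z)) E0.le (by linarith) hη (Real.sq_sqrt q0').symm hω
    ?_ ?_ ?_ ?_ ?_ ?_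
  · rw [Real.sq_sqrt (s2_nonneg _)] at key
    exact key
  · have hΦ : |p.Φ (qq z)| ≤ qq z := by rw [abs_of_nonneg b0.1]; exact b0.2
    exact (mb g2 hΦ).trans (le_of_eq (by ring))
  · exact (mb g1 B1).trans (le_of_eq (by ring))
  · exact (mb (abs_of_pos E0).le (b2.trans CM)).trans (le_of_eq (by ring))
  · have h1 : 1 - 2 * MM n Cs 1 * qq z ≤ 2 * p.Φ₁ (qq z) := by
      have : Cs * qq z ≤ MM n Cs 1 * qq z := mul_le_mul_of_nonneg_right CM q0'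
      linarith [b1.1]
    have := mul_le_mul_of_nonneg_left h1 E0.le
    linarith
  · have h1 : 0 ≤ 2 + 16 * MM n Cs 1 ^ 2 / η := by positivity
    have h2 := mul_le_mul_of_nonneg_right ht h1
    have h3 := mul_le_mul_of_nonneg_left hc K0.le
    linarith
  · have h2 := mul_le_mul_of_nonneg_left hr (by linarith : 0 ≤ 6 * MM n Cs 1)
    linarith

/-- The quantum terms, constants independent of `Cd`. -/
theorem rowQ0c : ∀ (n : ℕ) (Cs δ : ℝ), 0 < Cs → 0 < δ →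
    ∃ a c₀ C₁ C : ℝ, 0 < a ∧ 0 < c₀ ∧ c₀ ≤ 1 / 2 ∧ 0 < C₁ ∧ 0 < C ∧
    ∀ (Cd ε : ℝ) (ν : V n) (w : WF) (p : PF) (I : Set ℝ), ε ≤ 1 → s2 ν = 1 → PD Cs p →
    WD ε Cd w I →
    ∀ z : VV n, hν ν z ∈ I → qq z ≤ 4 * c₀ ^ 2 → C₁ ≤ w.φ₂ (hν ν z) →
    w.φ₂ (hν ν z) ≤ a * w.G (hν ν z) →
    ∀ (U V : V n) (x y lam : ℝ), 0 < lam →
    -(32 * n * (1 + δ) * w.G (hν ν z) ^ 2 * ((x + y) / 2) ^ 2) - lam * s2 (U - V) -
      δ * w.φ₂ (hν ν z) * (vν ν U + vν ν V) ^ 2 -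
      C * w.G (hν ν z) * (w.φ₂ (hν ν z) + w.G (hν ν z) * qq z) * ((x - y) / 2) ^ 2 -
      C * w.G (hν ν z) ^ 2 / lam * (((x - y) / 2) ^ 2 + qq z * ((x + y) / 2) ^ 2) ≤
    q0 (Wg ν w p) U V x y z + 8 * (x + y) * (w.φ₃ (hν ν z) * (vν ν U + vν ν V)) -
      2 * w.φ₄ (hν ν z) * (x + y) ^ 2 := by
  intro n Cs δ hCs hδ
  set M := MM n Cs 1 with hM
  have M2 : 2 ≤ M := MM_ge hCs one_pos
  obtain ⟨R, hR⟩ : ∃ R, R = 2048 * M ^ 4 := ⟨_, rfl⟩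
  have R1 : 1 ≤ R := by
    have : 1 ≤ M ^ 4 := one_le_pow₀ (by linarith)
    rw [hR]; linarith
  have R0 : 0 < R := by linarith
  obtain ⟨θ, hθ⟩ : ∃ θ, θ = min 1 (δ / 6) := ⟨_, rfl⟩
  have θ0 : 0 < θ := by rw [hθ]; exact lt_min one_pos (by positivity)
  have θ1 : θ ≤ 1 := by rw [hθ]; exact min_le_left _ _
  have θ2 : θ ≤ δ / 6 := by rw [hθ]; exact min_le_right _ _
  obtain ⟨c₀, hc₀⟩ : ∃ c₀, c₀ = min (1 / 2) (min (δ / (4 * R)) (θ / (8 * Cs))) := ⟨_, rfl⟩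
  have c0 : 0 < c₀ := by
    rw [hc₀]; exact lt_min (by norm_num) (lt_min (by positivity) (by positivity))
  have c1 : c₀ ≤ 1 / 2 := by rw [hc₀]; exact min_le_left _ _
  have c2 : c₀ ≤ δ / (4 * R) := by
    rw [hc₀]; exact (min_le_right _ _).trans (min_le_left _ _)
  have c3 : c₀ ≤ θ / (8 * Cs) := by
    rw [hc₀]; exact (min_le_right _ _).trans (min_le_right _ _)
  have cc : c₀ ^ 2 ≤ c₀ := by nlinarith
  have c4 : 4 * (R * c₀ ^ 2) ≤ δ := by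
    rw [le_div_iff₀ (by positivity)] at c2
    nlinarith
  have c5 : 8 * (Cs * c₀ ^ 2) ≤ θ := by
    rw [le_div_iff₀ (by positivity)] at c3
    nlinarith
  refine ⟨min 1 (δ / R), c₀, 1 + 2 * R / δ + 4 * R ^ 2 / δ ^ 2, (4 * R + 6 * R ^ 2 / δ) +
    R ^ 2, lt_min one_pos (by positivity), c0, c1, by positivity, by positivity, ?_⟩
  intro Cd ε ν w p I hε h0 hp hw z hI hr hC1 hKE U V x y lam hl
  have q0' := qq_nonneg z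
  have hc41 : 4 * c₀ ^ 2 ≤ 1 := by nlinarith
  have hr1 : qq z ≤ 1 := hr.trans hc41
  have n1 := n_pos h0
  have E0 := hw.gp _ hI
  have low := q0_low2' h0 hp hw hCs hε hI hr1 U V x y
  have cn := cν_le (ν := ν) hp hw hCs hI hr1 (θ := θ) (by nlinarith)
  obtain ⟨K, hK⟩ : ∃ K, K = w.φ₂ (hν ν z) := ⟨_, rfl⟩
  obtain ⟨E, hE⟩ : ∃ E, E = w.G (hν ν z) := ⟨_, rfl⟩
  rw [← hK] at hC1
  rw [← hK, ← hE] at hKE low
  rw [← hE] at cn E0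
  rw [← hK, ← hE]
  have d1 : 0 ≤ 2 * R / δ := by positivity
  have d2 : 0 ≤ 4 * R ^ 2 / δ ^ 2 := by positivity
  have K1 : 1 ≤ K := by linarith
  have K2 : 2 * R ≤ δ * K := by
    have : 2 * R / δ ≤ K := by linarith
    rw [div_le_iff₀ hδ] at this
    linarith
  have K3 : 4 * R ^ 2 ≤ δ ^ 2 * K := by
    have : 4 * R ^ 2 / δ ^ 2 ≤ K := by linarith
    rw [div_le_iff₀ (by positivity)] at this
    linarith
  have Ra : R * min 1 (δ / R) ≤ δ := by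
    have := mul_le_mul_of_nonneg_left (min_le_right 1 (δ / R)) R0.le
    rwa [mul_div_cancel₀ _ R0.ne'] at this
  have key := absQ (Y := Real.sqrt (s2 (U - V))) R1 hδ hl K1 hKE (min_le_left _ _)
    (Real.sqrt_nonneg _) (Real.sq_sqrt q0').symm hr Ra c4 K2 K3 (abs_nonneg (vν ν U + vν ν V))
    (abs_nonneg ((x + y) / 2)) (abs_nonneg ((x - y) / 2)) E0
  rw [← hM, ← hR] at low
  rw [Real.sq_sqrt (s2_nonneg _), sq_abs (vν ν U + vν ν V)] at key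
  have fin := finQ R0 hδ hl (by linarith : 0 < K) E0 q0' (sq_nonneg |(x + y) / 2|)
    (sq_nonneg |(x - y) / 2|) n1 θ0 θ1 θ2 key low cn
  rw [sq_abs ((x - y) / 2), sq_abs ((x + y) / 2)] at fin
  exact fin

/-- **(PI')** -/
theorem rowPIc : ∀ (n : ℕ) (Cs δ : ℝ), 0 < Cs → 0 < δ →
    ∃ a ε c₀ c C : ℝ, 0 < a ∧ 0 < ε ∧ 0 < c₀ ∧ c₀ ≤ 1 / 2 ∧ 0 < c ∧ 0 < C ∧
    ∀ Cd : ℝ, 0 < Cd → ∃ C₁ : ℝ, 0 < C₁ ∧
    ∀ (ν : V n) (w : WF) (p : PF) (I : Set ℝ), s2 ν = 1 → PD Cs p → WD ε Cd w I →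
    ∀ z : VV n, hν ν z ∈ I → qq z ≤ 4 * c₀ ^ 2 → C₁ ≤ w.φ₂ (hν ν z) →
    w.φ₂ (hν ν z) ≤ a * w.G (hν ν z) → w.G (hν ν z) * qq z ≤ c * w.φ₂ (hν ν z) →
    ∀ (U V : V n) (x y : ℝ),
    8 * (1 - δ) * w.G (hν ν z) * s2 (U - V) +
      w.φ₂ (hν ν z) * (∑ i, ν i * (U i + V i)) ^ 2 -
      32 * n * (1 + δ) * w.G (hν ν z) ^ 2 * ((x + y) / 2) ^ 2 -
      C * w.G (hν ν z) * w.φ₂ (hν ν z) * ((x - y) / 2) ^ 2 ≤ st (Wg ν w p) U V x y z := by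
  intro n Cs δ hCs hδ
  obtain ⟨δ₁, hδ₁⟩ : ∃ δ₁, δ₁ = min (δ / 2) 1 := ⟨_, rfl⟩
  have δ0 : 0 < δ₁ := by rw [hδ₁]; exact lt_min (by positivity) one_pos
  have δ1 : δ₁ ≤ δ / 2 := by rw [hδ₁]; exact min_le_left _ _
  have δ2 : δ₁ ≤ 1 := by rw [hδ₁]; exact min_le_right _ _
  obtain ⟨a', c₀', C₁', C', ha', hc₀', hc₀1, hC₁', hC', q⟩ := rowQ0c n Cs δ₁ hCs δ0
  have M2 : 2 ≤ MM n Cs 1 := MM_ge hCs one_pos
  obtain ⟨c, hc⟩ : ∃ c, c = 1 / (2 * (2 + 16 * MM n Cs 1 ^ 2 / (δ / 4))) := ⟨_, rfl⟩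
  have p1 : 0 < 2 + 16 * MM n Cs 1 ^ 2 / (δ / 4) := by positivity
  have c0 : 0 < c := by rw [hc]; positivity
  have c1 : c * (2 + 16 * MM n Cs 1 ^ 2 / (δ / 4)) ≤ 1 / 2 := by
    rw [hc]; apply le_of_eq; field_simp
  have c2 : c ≤ 1 := by
    have h1 : 0 ≤ 16 * MM n Cs 1 ^ 2 / (δ / 4) := by positivity
    nlinarith
  obtain ⟨c₀, hc₀⟩ : ∃ c₀, c₀ = min c₀' (δ / 4 / (24 * MM n Cs 1)) := ⟨_, rfl⟩
  have m0 : 0 < 24 * MM n Cs 1 := by linarith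
  have c3 : 0 < c₀ := by rw [hc₀]; exact lt_min hc₀' (by positivity)
  have c4 : c₀ ≤ c₀' := by rw [hc₀]; exact min_le_left _ _
  have c5 : c₀ ≤ δ / 4 / (24 * MM n Cs 1) := by rw [hc₀]; exact min_le_right _ _
  have c6 : c₀ ≤ 1 / 2 := c4.trans hc₀1
  have c7 : 24 * MM n Cs 1 * c₀ ^ 2 ≤ δ / 4 := by
    rw [le_div_iff₀ m0] at c5
    have h1 : c₀ ^ 2 ≤ c₀ := by nlinarith
    have := mul_le_mul_of_nonneg_left h1 m0.le
    linarith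
  refine ⟨min a' 1, 1, c₀, c, 2 * C' + C' / δ₁,
    lt_min ha' one_pos, one_pos, c3, c6, c0, by positivity, ?_⟩
  intro Cd hCd
  refine ⟨C₁' + 1 + C' / (8 * δ * δ₁) + (64 * Cd ^ 2 + 8 * Cd) / (8 * δ), by positivity, ?_⟩
  intro ν w p I h0 hp hw z hI hr hK hKE ht U V x y
  have q0' := qq_nonneg z
  have hr1 : qq z ≤ 1 := by nlinarith
  have hr' : qq z ≤ 4 * c₀' ^ 2 := by
    have : c₀ ^ 2 ≤ c₀' ^ 2 := pow_le_pow_left₀ c3.le c4 2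
    linarith
  have E0 := hw.gp _ hI
  have K0 := hw.kp _ hI
  have d3 : 0 ≤ C' / (8 * δ * δ₁) := by positivity
  have d4 : 0 ≤ (64 * Cd ^ 2 + 8 * Cd) / (8 * δ) := by positivity
  have K1 : 1 ≤ w.φ₂ (hν ν z) := by linarith
  have hKa : w.φ₂ (hν ν z) ≤ a' * w.G (hν ν z) :=
    hKE.trans (mul_le_mul_of_nonneg_right (min_le_left _ _) E0.le)
  have hKE1 : w.φ₂ (hν ν z) ≤ w.G (hν ν z) :=
    hKE.trans (mul_le_of_le_one_left E0.le (min_le_right _ _))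
  have low := q Cd 1 ν w p I le_rfl h0 hp hw z hI hr' (by linarith) hKa U V x y
    (δ₁ * w.G (hν ν z)) (mul_pos δ0 E0)
  have hess := hs_low2 hp hw hCs le_rfl (by positivity : 0 < δ / 4) hI hr hr1 c7 c1 ht U V
  have hK8 : C' ≤ 8 * δ * δ₁ * w.φ₂ (hν ν z) := by
    have : C' / (8 * δ * δ₁) ≤ w.φ₂ (hν ν z) := by linarith
    rw [div_le_iff₀ (by positivity)] at this
    linarith
  have hKd : 64 * Cd ^ 2 + 8 * Cd ≤ 8 * δ * w.φ₂ (hν ν z) := by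
    have : (64 * Cd ^ 2 + 8 * Cd) / (8 * δ) ≤ w.φ₂ (hν ν z) := by linarith
    rw [div_le_iff₀ (by positivity)] at this
    linarith
  have e2 : (2 * ((x + y) / 2)) = x + y := by ring
  unfold st
  rw [sum_uv]
  refine finIc hδ hC' δ0 δ1 δ2 K1 E0 hKE1 q0' hr1 (sq_nonneg _) (s2_nonneg _) hCd (n_pos h0)
    hK8 c2 ht (hw.kd _ hI).1 (hw.kd _ hI).2 hKd ?_ hess
  rw [e2]
  exact low

end Vale.Agent.P088.R2.H406.Z
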