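import Vale.Agent.P088.R2.H205.C.SpecR
import Vale.Agent.P088.R2.H406.Z.RowPIc

/-!
# P088, stage 3, zone C, region I: the row `RowPI'`
-/

namespace Vale.Agent.P088.R2.H406.Z

open Vale.Agent.P088.R2.H205.CP

/-- **(PI')** the pointwise inequality of region I; only `C₁` depends on `Cd`. -/
theorem rowPI' : RowPI' := rowPIc

end Vale.Agent.P088.R2.H406.Z
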