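import Vale.Agent.P088.R2.H406.Z.Low
import Vale.Agent.P088.R2.H406.C.Abs3

/-!
# P088, zone C: the rows `RowQ0`, `RowPI`, `RowP0` of the pointwise specification
-/

open Set Filter
open scoped ContDiff Topology

noncomputable section

namespace Vale.Agent.P088.R2.H406.Z

open Vale.Agent.P088.LR Vale.Agent.P088.HY
open Vale.Agent.P088.R2.H644
open Vale.Agent.P088.R2.H205.CP (lx ly hν s2 q0 st WF PF Wg PD WD RowQ0 RowPI RowP0)
open Vale.Agent.P088.R2.H406.C (absQ absP absH mb)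

variable {n : ℕ}

/-- All derivatives. -/
def it (f : ℝ → ℝ) (k : ℕ) : ℝ → ℝ := iteratedDeriv k f

theorem chn_it {f : ℝ → ℝ} (hf : ContDiff ℝ ∞ f) : Chn (it f) := chn_of hf

theorem it0 (f : ℝ → ℝ) : it f 0 = f := iteratedDeriv_zero

theorem it_succ {f : ℝ → ℝ} {k : ℕ} {g h : ℝ → ℝ} (e : it f k = g)
    (hg : ∀ s, HasDerivAt g (h s) s) : it f (k + 1) = h := by
  have e' : iteratedDeriv k f = g := e
  unfold it
  rw [iteratedDeriv_succ, e']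
  exact funext fun s => (hg s).deriv

/-- The constant. -/
def MM (n : ℕ) (Cs Cd : ℝ) : ℝ := 2 + Cd + n + (4 * n ^ 2 + 24 * n + 64) * Cs

theorem lpk_le {m k1 k2 s C : ℝ} (hs0 : 0 ≤ s) (hs1 : s ≤ 1) (hm : 0 ≤ m) {C1 : ℝ}
    (h1 : |k1| ≤ C1) (h2 : |k2| ≤ C) : |4 * s * k2 + m * k1| ≤ 4 * C + m * C1 := by
  have t1 := abs_le.1 (mb (abs_of_nonneg hs0).le h2)
  have t2 := abs_le.1 (mb (abs_of_nonneg hm).le h1)
  have C0 : 0 ≤ C := (abs_nonneg _).trans h2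
  have t3 : s * C ≤ C := mul_le_of_le_one_left C0 hs1
  rw [abs_le]
  constructor
  · linarith [t1.1, t2.1]
  · linarith [t1.2, t2.2]

section rows

variable {Cs Cd ε : ℝ} {ν : V n} {w : WF} {p : PF} {I : Set ℝ} {z : VV n}

theorem Wg_Wz (ν : V n) (w : WF) (p : PF) :
    (Wg ν w p : VV n → ℝ) = Wz ν (it w.φ) (it w.G) (it p.Φ) := by
  funext z
  unfold Wg Wz
  rw [it0, it0, it0]

theorem eφ (h : WD ε Cd w I) : it w.φ 1 = w.φ₁ ∧ it w.φ 2 = w.φ₂ ∧ it w.φ 3 = w.φ₃ ∧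
    it w.φ 4 = w.φ₄ := by
  have e1 := it_succ (it0 w.φ) h.d1
  have e2 := it_succ e1 h.d2
  have e3 := it_succ e2 h.d3
  exact ⟨e1, e2, e3, it_succ e3 h.d4⟩

theorem eG (h : WD ε Cd w I) : it w.G 1 = w.G₁ ∧ it w.G 2 = w.G₂ ∧ it w.G 3 = w.G₃ ∧
    it w.G 4 = w.G₄ := by
  have e1 := it_succ (it0 w.G) h.e1
  have e2 := it_succ e1 h.e2
  have e3 := it_succ e2 h.e3
  exact ⟨e1, e2, e3, it_succ e3 h.e4⟩

theorem eP (h : PD Cs p) : it p.Φ 1 = p.Φ₁ ∧ it p.Φ 2 = p.Φ₂ ∧ it p.Φ 3 = p.Φ₃ ∧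
    it p.Φ 4 = p.Φ₄ := by
  have e1 := it_succ (it0 p.Φ) h.d1
  have e2 := it_succ e1 h.d2
  have e3 := it_succ e2 h.d3
  exact ⟨e1, e2, e3, it_succ e3 h.d4⟩

theorem abs_of_rel {g e ε : ℝ} (he : 0 < e) (hε : ε ≤ 1) (h : |g - e| ≤ ε * e) :
    |g| ≤ 2 * e := by
  have h1 := abs_le.1 h
  have h2 : ε * e ≤ e := mul_le_of_le_one_left he.le hε
  rw [abs_le]
  constructor
  · linarith [h1.1]
  · linarith [h1.2]

theorem pb_of (hp : PD Cs p) (hw : WD ε Cd w I) (hCs : 0 < Cs) (hCd : 0 < Cd) (hε : ε ≤ 1)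
    (hI : hν ν z ∈ I) (hr : qq z ≤ 1) : PB ν (it w.φ) (it w.G) (it p.Φ) (w.φ₂ (hν ν z))
      (w.G (hν ν z)) (MM n Cs Cd) z := by
  have n0 : (0 : ℝ) ≤ n := Nat.cast_nonneg n
  have q0' := qq_nonneg z
  obtain ⟨f1, f2, f3, f4⟩ := eφ hw
  obtain ⟨g1, g2, g3, g4⟩ := eG hw
  obtain ⟨p1, p2, p3, p4⟩ := eP hp
  have K0 := hw.kp _ hI
  have E0 := hw.gp _ hI
  have M0 : 0 ≤ (4 * (n : ℝ) ^ 2 + 24 * n + 64) * Cs := by positivity
  have b1 := hp.b1 _ q0' hr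
  have b2 := hp.b2 _ q0' hr
  have B1 : |p.Φ₁ (qq z)| ≤ 1 / 2 + Cs := by
    have h1 := abs_le.1 b1
    have h2 : Cs * qq z ≤ Cs := mul_le_of_le_one_right hCs.le hr
    rw [abs_le]
    constructor
    · linarith [h1.1]
    · linarith [h1.2]
  have M2 : 2 ≤ MM n Cs Cd := by unfold MM; linarith
  have nn : 0 ≤ (n : ℝ) ^ 2 * Cs := by positivity
  have nC : 0 ≤ (n : ℝ) * Cs := by positivity
  have L2' : |l2 n (it p.Φ) (qq z)| ≤ 4 * Cs + (2 * n + 4) * Cs := by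
    unfold l2 lpk
    rw [p2, p3]
    exact lpk_le q0' hr (by positivity) b2.1 b2.2.1
  have L3' : |l3 n (it p.Φ) (qq z)| ≤ 4 * Cs + (2 * n + 8) * Cs := by
    unfold l3 lpk
    rw [p3, p4]
    exact lpk_le q0' hr (by positivity) b2.2.1 b2.2.2
  refine ⟨K0.le, E0.le, by linarith, hr, ?_, ?_, ?_, ?_, ?_, ?_, ?_, ?_⟩
  · intro k hk2 hk4
    have hMd : Cd ≤ MM n Cs Cd := by unfold MM; linarith
    interval_cases k
    · rw [f2, abs_of_pos K0]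
      nlinarith
    · rw [f3]
      exact (hw.kd _ hI).1.trans (mul_le_mul_of_nonneg_right hMd K0.le)
    · rw [f4]
      exact (hw.kd _ hI).2.trans (mul_le_mul_of_nonneg_right hMd K0.le)
  · intro k hk4
    have key : ∀ g, |g - w.G (hν ν z)| ≤ ε * w.G (hν ν z) → |g| ≤
        MM n Cs Cd * w.G (hν ν z) := fun g hg =>
      (abs_of_rel E0 hε hg).trans (mul_le_mul_of_nonneg_right M2 E0.le)
    interval_cases k
    · rw [it0, abs_of_pos E0]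
      nlinarith
    · rw [g1]; exact key _ (hw.g1 _ hI)
    · rw [g2]; exact key _ (hw.g2 _ hI)
    · rw [g3]; exact key _ (hw.g3 _ hI)
    · rw [g4]; exact key _ (hw.g4 _ hI)
  · rw [it0, abs_of_nonneg (hp.ps _ q0' hr).1]
    nlinarith [(hp.ps _ q0' hr).2]
  · rw [p1]
    refine B1.trans ?_
    unfold MM
    nlinarith
  · rw [p2]
    refine b2.1.trans ?_
    unfold MM
    nlinarith
  · unfold l1 lpk
    rw [p1, p2]
    refine (lpk_le q0' hr (by positivity) B1 b2.1).trans ?_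
    unfold MM
    nlinarith
  · refine L2'.trans ?_
    unfold MM
    nlinarith
  · unfold l4 lpk
    refine (lpk_le q0' hr (by positivity) L2' L3').trans ?_
    unfold MM
    nlinarith

/-- `ν` at the point. -/
theorem cν_le (hp : PD Cs p) (hw : WD ε Cd w I) (hCs : 0 < Cs) (hI : hν ν z ∈ I)
    (hr : qq z ≤ 1) {θ : ℝ} (hθ : 2 * Cs * qq z ≤ θ) :
    cν ν (it w.G) (it p.Φ) z ^ 2 ≤ (1 + θ) ^ 2 * w.G (hν ν z) ^ 2 := by
  have q0' := qq_nonneg z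
  have E0 := hw.gp _ hI
  have b1 := abs_le.1 (hp.b1 _ q0' hr)
  have θ0 : 0 ≤ θ := le_trans (by positivity) hθ
  unfold cν
  rw [it0, (eP hp).1]
  have e : 2 * (w.G (hν ν z) * p.Φ₁ (qq z)) = w.G (hν ν z) * (2 * p.Φ₁ (qq z)) := by ring
  rw [e, mul_pow, mul_comm]
  refine mul_le_mul_of_nonneg_right ?_ (sq_nonneg _)
  refine sq_le_sq' ?_ ?_
  · linarith [b1.1]
  · linarith [b1.2]

end rows

end Vale.Agent.P088.R2.H406.Z
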