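import Vale.Agent.P088.R2.H406.Z.Rows

/-!
# P088, zone C: the rows `RowQ0`, `RowPI`, `RowP0` of the pointwise specification
-/

open Set Filter
open scoped ContDiff Topology

noncomputable section

namespace Vale.Agent.P088.R2.H406.Z

open Vale.Agent.P088.LR Vale.Agent.P088.HY
open Vale.Agent.P088.R2.H644
open Vale.Agent.P088.R2.H205.CP (lx ly hν s2 q0 st WF PF Wg PD WD RowQ0 RowPI RowP0)
open Vale.Agent.P088.R2.H406.C (absQ absP absH mb finQ finI)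

variable {n : ℕ}

theorem MM_ge {Cs Cd : ℝ} (hCs : 0 < Cs) (hCd : 0 < Cd) : 2 ≤ MM n Cs Cd := by
  have n0 : (0 : ℝ) ≤ n := Nat.cast_nonneg n
  have M0 : 0 ≤ (4 * (n : ℝ) ^ 2 + 24 * n + 64) * Cs := by positivity
  unfold MM
  linarith

theorem sum_uv (ν U V : V n) : ∑ i, ν i * (U i + V i) = vν ν U + vν ν V := by
  unfold vν
  rw [← Finset.sum_add_distrib]
  exact Finset.sum_congr rfl fun i _ => by ring

theorem s2_nonneg (v : V n) : 0 ≤ s2 v := Finset.sum_nonneg fun _ _ => sq_nonneg _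

theorem n_pos {ν : V n} (h0 : s2 ν = 1) : (1 : ℝ) ≤ n := by
  rcases Nat.eq_zero_or_pos n with rfl | h
  · unfold s2 at h0
    simp at h0
  · exact_mod_cast h

/-- The lower bound with `R = 2048 M⁴`. -/
theorem q0_low' {Cs Cd ε : ℝ} {ν : V n} {w : WF} {p : PF} {I : Set ℝ} {z : VV n}
    (h0 : s2 ν = 1) (hp : PD Cs p) (hw : WD ε Cd w I) (hCs : 0 < Cs) (hCd : 0 < Cd)
    (hε : ε ≤ 1) (hI : hν ν z ∈ I) (hr : qq z ≤ 1) (U V : V n) (x y : ℝ) :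
    -(32 * n * cν ν (it w.G) (it p.Φ) z ^ 2 * |(x + y) / 2| ^ 2) - 2048 * MM n Cs Cd ^ 4 *
      ((w.φ₂ (hν ν z) ^ 2 + w.φ₂ (hν ν z) * w.G (hν ν z) + w.G (hν ν z) ^ 2 * qq z +
        w.φ₂ (hν ν z) + w.G (hν ν z)) * (|(x + y) / 2| ^ 2 + |(x - y) / 2| ^ 2) +
        (w.φ₂ (hν ν z) + w.G (hν ν z)) ^ 2 * Real.sqrt (qq z) *
          (|(x + y) / 2| * |(x - y) / 2|) +
        ((w.φ₂ (hν ν z) + w.G (hν ν z)) * |vν ν U + vν ν V| + w.G (hν ν z) *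
          Real.sqrt (qq z) * Real.sqrt (s2 (U - V))) * |(x + y) / 2| +
        (w.φ₂ (hν ν z) * |vν ν U + vν ν V| + w.G (hν ν z) * Real.sqrt (qq z) *
          |vν ν U + vν ν V| + w.G (hν ν z) * Real.sqrt (s2 (U - V))) * |(x - y) / 2|) ≤
    q0 (Wg ν w p) U V x y z := by
  have pb := pb_of hp hw hCs hCd hε hI hr
  have h := q0_low (chn_it hw.sm) (chn_it hw.sg) (chn_it hp.sm) pb h0 U V x y
  rw [Wg_Wz]
  refine le_trans (le_of_eq ?_) h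
  rw [sq_abs, sq_abs]
  ring

/-- **(Q0)** -/
theorem rowQ0 : RowQ0 := by
  intro n Cs Cd δ hCs hCd hδ
  set M := MM n Cs Cd with hM
  have M2 : 2 ≤ M := MM_ge hCs hCd
  obtain ⟨R, hR⟩ : ∃ R, R = 2048 * M ^ 4 := ⟨_, rfl⟩
  have R1 : 1 ≤ R := by
    have : 1 ≤ M ^ 4 := one_le_pow₀ (by linarith)
    rw [hR]; linarith
  have R0 : 0 < R := by linarith
  obtain ⟨θ, hθ⟩ : ∃ θ, θ = min 1 (δ / 6) := ⟨_, rfl⟩
  have θ0 : 0 < θ := by rw [hθ]; exact lt_min one_pos (by positivity)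
  have θ1 : θ ≤ 1 := by rw [hθ]; exact min_le_left _ _
  have θ2 : θ ≤ δ / 6 := by rw [hθ]; exact min_le_right _ _
  obtain ⟨c₀, hc₀⟩ : ∃ c₀, c₀ = min (1 / 2) (min (δ / (4 * R)) (θ / (8 * Cs))) := ⟨_, rfl⟩
  have c0 : 0 < c₀ := by
    rw [hc₀]; exact lt_min (by norm_num) (lt_min (by positivity) (by positivity))
  have c1 : c₀ ≤ 1 / 2 := by rw [hc₀]; exact min_le_left _ _
  have c2 : c₀ ≤ δ / (4 * R) := by
    rw [hc₀]; exact (min_le_right _ _).trans (min_le_left _ _)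
  have c3 : c₀ ≤ θ / (8 * Cs) := by
    rw [hc₀]; exact (min_le_right _ _).trans (min_le_right _ _)
  have cc : c₀ ^ 2 ≤ c₀ := by nlinarith
  have c4 : 4 * (R * c₀ ^ 2) ≤ δ := by
    rw [le_div_iff₀ (by positivity)] at c2
    nlinarith
  have c5 : 8 * (Cs * c₀ ^ 2) ≤ θ := by
    rw [le_div_iff₀ (by positivity)] at c3
    nlinarith
  refine ⟨min 1 (δ / R), 1, c₀, 1 + 2 * R / δ + 4 * R ^ 2 / δ ^ 2, (4 * R + 6 * R ^ 2 / δ) +
    R ^ 2, lt_min one_pos (by positivity), one_pos, c0, c1, by positivity, by positivity, ?_⟩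
  intro ν w p I h0 hp hw z hI hr hC1 hKE U V x y lam hl
  have q0' := qq_nonneg z
  have hc41 : 4 * c₀ ^ 2 ≤ 1 := by nlinarith
  have hr1 : qq z ≤ 1 := hr.trans hc41
  have n1 := n_pos h0
  have E0 := hw.gp _ hI
  have low := q0_low' h0 hp hw hCs hCd le_rfl hI hr1 U V x y
  have cn := cν_le (ν := ν) hp hw hCs hI hr1 (θ := θ) (by nlinarith)
  obtain ⟨K, hK⟩ : ∃ K, K = w.φ₂ (hν ν z) := ⟨_, rfl⟩
  obtain ⟨E, hE⟩ : ∃ E, E = w.G (hν ν z) := ⟨_, rfl⟩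
  rw [← hK] at hC1
  rw [← hK, ← hE] at hKE low
  rw [← hE] at cn E0
  rw [← hK, ← hE]
  have d1 : 0 ≤ 2 * R / δ := by positivity
  have d2 : 0 ≤ 4 * R ^ 2 / δ ^ 2 := by positivity
  have K1 : 1 ≤ K := by linarith
  have K2 : 2 * R ≤ δ * K := by
    have : 2 * R / δ ≤ K := by linarith
    rw [div_le_iff₀ hδ] at this
    linarith
  have K3 : 4 * R ^ 2 ≤ δ ^ 2 * K := by
    have : 4 * R ^ 2 / δ ^ 2 ≤ K := by linarith
    rw [div_le_iff₀ (by positivity)] at this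
    linarith
  have Ra : R * min 1 (δ / R) ≤ δ := by
    have := mul_le_mul_of_nonneg_left (min_le_right 1 (δ / R)) R0.le
    rwa [mul_div_cancel₀ _ R0.ne'] at this
  have key := absQ (Y := Real.sqrt (s2 (U - V))) R1 hδ hl K1 hKE (min_le_left _ _)
    (Real.sqrt_nonneg _) (Real.sq_sqrt q0').symm hr Ra c4 K2 K3 (abs_nonneg (vν ν U + vν ν V))
    (abs_nonneg ((x + y) / 2)) (abs_nonneg ((x - y) / 2)) E0
  rw [← hM, ← hR] at low
  rw [Real.sq_sqrt (s2_nonneg _), sq_abs (vν ν U + vν ν V)] at key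
  have fin := finQ R0 hδ hl (by linarith : 0 < K) E0 q0' (sq_nonneg |(x + y) / 2|)
    (sq_nonneg |(x - y) / 2|) n1 θ0 θ1 θ2 key low cn
  rw [sq_abs ((x - y) / 2), sq_abs ((x + y) / 2)] at fin
  rw [sum_uv]
  exact fin

end Vale.Agent.P088.R2.H406.Z
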