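import Vale.Agent.P088.R2.H406.Z.Rows2

/-!
# P088, zone C: the rows `RowPI`, `RowP0` of the pointwise specification
-/

open Set Filter
open scoped ContDiff Topology

noncomputable section

namespace Vale.Agent.P088.R2.H406.Z

open Vale.Agent.P088.LR Vale.Agent.P088.HY
open Vale.Agent.P088.R2.H644
open Vale.Agent.P088.R2.H205.CP (lx ly hν s2 q0 st WF PF Wg PD WD RowQ0 RowPI RowP0)
open Vale.Agent.P088.R2.H406.C (absQ absP absH mb finQ finI finP)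

variable {n : ℕ}

theorem WD_mono {ε ε' Cd : ℝ} {w : WF} {I : Set ℝ} (h : WD ε Cd w I) (he : ε ≤ ε') :
    WD ε' Cd w I := by
  have key : ∀ s ∈ I, ∀ g, |g - w.G s| ≤ ε * w.G s → |g - w.G s| ≤ ε' * w.G s :=
    fun s hs g hg => hg.trans (mul_le_mul_of_nonneg_right he (h.gp s hs).le)
  exact ⟨h.sm, h.d1, h.d2, h.d3, h.d4, h.sg, h.e1, h.e2, h.e3, h.e4, h.gp, h.np, h.kp, h.kn,
    h.kd, fun s hs => key s hs _ (h.g1 s hs), fun s hs => key s hs _ (h.g2 s hs),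
    fun s hs => key s hs _ (h.g3 s hs), fun s hs => key s hs _ (h.g4 s hs)⟩

/-- The Hessian. -/
theorem hs_low {Cs Cd ε η c c₀ : ℝ} {ν : V n} {w : WF} {p : PF} {I : Set ℝ} {z : VV n}
    (hp : PD Cs p) (hw : WD ε Cd w I) (hCs : 0 < Cs) (hCd : 0 < Cd) (hε : ε ≤ 1)
    (hη : 0 < η) (hI : hν ν z ∈ I) (hr : qq z ≤ 4 * c₀ ^ 2) (hr1 : qq z ≤ 1)
    (hc₀ : 24 * MM n Cs Cd * c₀ ^ 2 ≤ η)
    (hc : c * (2 + 16 * MM n Cs Cd ^ 2 / η) ≤ 1 / 2)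
    (ht : w.G (hν ν z) * qq z ≤ c * w.φ₂ (hν ν z)) (U V : V n) :
    4 * (w.φ₂ (hν ν z) * (vν ν U + vν ν V) ^ 2) +
      8 * (1 - 2 * η) * (w.G (hν ν z) * s2 (U - V)) ≤ 8 * hs (Wg ν w p) (U, V) z := by
  have q0' := qq_nonneg z
  have M2 : 2 ≤ MM n Cs Cd := MM_ge hCs hCd
  have CM : Cs ≤ MM n Cs Cd := by
    have n0 : (0 : ℝ) ≤ n := Nat.cast_nonneg n
    have nn : 0 ≤ (n : ℝ) ^ 2 * Cs := by positivity
    have nC : 0 ≤ (n : ℝ) * Cs := by positivity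
    unfold MM
    nlinarith
  have K0 := hw.kp _ hI
  have E0 := hw.gp _ hI
  have b0 := hp.ps _ q0' hr1
  have b1 := abs_le.1 (hp.b1 _ q0' hr1)
  have b2 := (hp.b2 _ q0' hr1).1
  have B1 : |p.Φ₁ (qq z)| ≤ MM n Cs Cd := by
    have pb := pb_of (ν := ν) hp hw hCs hCd hε hI hr1
    have := pb.F1
    rwa [(eP hp).1] at this
  have g1 := abs_of_rel E0 hε (hw.g1 _ hI)
  have g2 := abs_of_rel E0 hε (hw.g2 _ hI)
  have hω := cs_qdot z U V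
  rw [Wg_Wz, hs_Wz (chn_it hw.sm) (chn_it hw.sg) (chn_it hp.sm), (eφ hw).2.1, (eG hw).1,
    (eG hw).2.1, (eP hp).1, (eP hp).2.1, it0, it0]
  have key := absH (K := w.φ₂ (hν ν z)) (E := w.G (hν ν z)) (s := qq z) (M := MM n Cs Cd)
    (η := η) (τ := vν ν U + vν ν V) (om := qdot z U - qdot z V) (Y := Real.sqrt (s2 (U - V)))
    (r := Real.sqrt (qq z)) (x2 := w.G₂ (hν ν z) * p.Φ (qq z))
    (x1 := w.G₁ (hν ν z) * p.Φ₁ (qq z)) (x0 := w.G (hν ν z) * p.Φ₂ (qq z))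
    (x3 := w.G (hν ν z) * p.Φ₁ (qq z)) E0.le (by linarith) hη (Real.sq_sqrt q0').symm hω
    ?_ ?_ ?_ ?_ ?_ ?_
  · rw [Real.sq_sqrt (s2_nonneg _)] at key
    exact key
  · have hΦ : |p.Φ (qq z)| ≤ qq z := by rw [abs_of_nonneg b0.1]; exact b0.2
    exact (mb g2 hΦ).trans (le_of_eq (by ring))
  · exact (mb g1 B1).trans (le_of_eq (by ring))
  · exact (mb (abs_of_pos E0).le (b2.trans CM)).trans (le_of_eq (by ring))
  · have h1 : 1 - 2 * MM n Cs Cd * qq z ≤ 2 * p.Φ₁ (qq z) := by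
      have : Cs * qq z ≤ MM n Cs Cd * qq z := mul_le_mul_of_nonneg_right CM q0'
      linarith [b1.1]
    have := mul_le_mul_of_nonneg_left h1 E0.le
    linarith
  · have h1 : 0 ≤ 2 + 16 * MM n Cs Cd ^ 2 / η := by positivity
    have h2 := mul_le_mul_of_nonneg_right ht h1
    have h3 := mul_le_mul_of_nonneg_left hc K0.le
    linarith
  · have h2 := mul_le_mul_of_nonneg_left hr (by linarith : 0 ≤ 6 * MM n Cs Cd)
    linarith

/-- **(PI)** -/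
theorem rowPI : RowPI := by
  intro n Cs Cd δ hCs hCd hδ
  obtain ⟨δ₁, hδ₁⟩ : ∃ δ₁, δ₁ = min (δ / 2) 1 := ⟨_, rfl⟩
  have δ0 : 0 < δ₁ := by rw [hδ₁]; exact lt_min (by positivity) one_pos
  have δ1 : δ₁ ≤ δ / 2 := by rw [hδ₁]; exact min_le_left _ _
  have δ2 : δ₁ ≤ 1 := by rw [hδ₁]; exact min_le_right _ _
  obtain ⟨a', ε', c₀', C₁', C', ha', hε', hc₀', hc₀1, hC₁', hC', q⟩ :=
    rowQ0 n Cs Cd δ₁ hCs hCd δ0
  have M2 : 2 ≤ MM n Cs Cd := MM_ge hCs hCd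
  obtain ⟨c, hc⟩ : ∃ c, c = 1 / (2 * (2 + 16 * MM n Cs Cd ^ 2 / (δ / 4))) := ⟨_, rfl⟩
  have p1 : 0 < 2 + 16 * MM n Cs Cd ^ 2 / (δ / 4) := by positivity
  have c0 : 0 < c := by rw [hc]; positivity
  have c1 : c * (2 + 16 * MM n Cs Cd ^ 2 / (δ / 4)) ≤ 1 / 2 := by
    rw [hc]; apply le_of_eq; field_simp
  have c2 : c ≤ 1 := by
    have h1 : 0 ≤ 16 * MM n Cs Cd ^ 2 / (δ / 4) := by positivity
    nlinarith
  obtain ⟨c₀, hc₀⟩ : ∃ c₀, c₀ = min c₀' (δ / 4 / (24 * MM n Cs Cd)) := ⟨_, rfl⟩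
  have m0 : 0 < 24 * MM n Cs Cd := by linarith
  have c3 : 0 < c₀ := by rw [hc₀]; exact lt_min hc₀' (by positivity)
  have c4 : c₀ ≤ c₀' := by rw [hc₀]; exact min_le_left _ _
  have c5 : c₀ ≤ δ / 4 / (24 * MM n Cs Cd) := by rw [hc₀]; exact min_le_right _ _
  have c6 : c₀ ≤ 1 / 2 := c4.trans hc₀1
  have c7 : 24 * MM n Cs Cd * c₀ ^ 2 ≤ δ / 4 := by
    rw [le_div_iff₀ m0] at c5
    have h1 : c₀ ^ 2 ≤ c₀ := by nlinarith
    have := mul_le_mul_of_nonneg_left h1 m0.le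
    linarith
  refine ⟨min a' 1, min ε' 1, c₀, c, C₁' + 1 + C' / (16 * δ * δ₁), 2 * C' + C' / δ₁,
    lt_min ha' one_pos, lt_min hε' one_pos, c3, c6, c0, by positivity, by positivity, ?_⟩
  intro ν w p I h0 hp hw z hI hr hK hKE ht U V x y
  have hw1 := WD_mono hw (min_le_left ε' 1)
  have hw2 := WD_mono hw (min_le_right ε' 1)
  have q0' := qq_nonneg z
  have hr1 : qq z ≤ 1 := by nlinarith
  have hr' : qq z ≤ 4 * c₀' ^ 2 := by
    have : c₀ ^ 2 ≤ c₀' ^ 2 := pow_le_pow_left₀ c3.le c4 2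
    linarith
  have E0 := hw.gp _ hI
  have K0 := hw.kp _ hI
  have d3 : 0 ≤ C' / (16 * δ * δ₁) := by positivity
  have K1 : 1 ≤ w.φ₂ (hν ν z) := by linarith
  have hKa : w.φ₂ (hν ν z) ≤ a' * w.G (hν ν z) :=
    hKE.trans (mul_le_mul_of_nonneg_right (min_le_left _ _) E0.le)
  have hKE1 : w.φ₂ (hν ν z) ≤ w.G (hν ν z) :=
    hKE.trans (mul_le_of_le_one_left E0.le (min_le_right _ _))
  have low := q ν w p I h0 hp hw1 z hI hr' (by linarith) hKa U V x y (δ₁ * w.G (hν ν z))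
    (mul_pos δ0 E0)
  have hess := hs_low hp hw2 hCs hCd le_rfl (by positivity : 0 < δ / 4) hI hr hr1 c7 c1 ht U V
  rw [sum_uv] at low ⊢
  have hK16 : C' ≤ 16 * δ * δ₁ * w.φ₂ (hν ν z) := by
    have : C' / (16 * δ * δ₁) ≤ w.φ₂ (hν ν z) := by linarith
    rw [div_le_iff₀ (by positivity)] at this
    linarith
  exact finI hδ hC' δ0 δ1 δ2 K1 E0 hKE1 q0' hr1 (sq_nonneg _) (sq_nonneg _) (sq_nonneg _)
    (s2_nonneg _) (n_pos h0) hK16 c2 ht low hess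

/-- **(P0)** -/
theorem rowP0 : RowP0 := by
  intro n Cs Cd hCs hCd
  have M2 : 2 ≤ MM n Cs Cd := MM_ge hCs hCd
  obtain ⟨R, hR⟩ : ∃ R, R = 2048 * MM n Cs Cd ^ 4 := ⟨_, rfl⟩
  have R1 : 1 ≤ R := by
    have : 1 ≤ MM n Cs Cd ^ 4 := one_le_pow₀ (by linarith)
    rw [hR]; linarith
  have R0 : 0 < R := by linarith
  obtain ⟨c, hc⟩ : ∃ c, c = 1 / (2 * (2 + 16 * MM n Cs Cd ^ 2 / (1 / 8))) := ⟨_, rfl⟩
  have p1 : 0 < 2 + 16 * MM n Cs Cd ^ 2 / (1 / 8) := by positivity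
  have c0 : 0 < c := by rw [hc]; positivity
  have c1 : c * (2 + 16 * MM n Cs Cd ^ 2 / (1 / 8)) ≤ 1 / 2 := by
    rw [hc]; apply le_of_eq; field_simp
  obtain ⟨c₀, hc₀⟩ : ∃ c₀, c₀ = min (1 / 2) (min (1 / 8 / (24 * MM n Cs Cd)) (1 / (8 * Cs))) :=
    ⟨_, rfl⟩
  have m0 : 0 < 24 * MM n Cs Cd := by linarith
  have c3 : 0 < c₀ := by
    rw [hc₀]; exact lt_min (by norm_num) (lt_min (by positivity) (by positivity))
  have c6 : c₀ ≤ 1 / 2 := by rw [hc₀]; exact min_le_left _ _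
  have c5 : c₀ ≤ 1 / 8 / (24 * MM n Cs Cd) := by
    rw [hc₀]; exact (min_le_right _ _).trans (min_le_left _ _)
  have c8 : c₀ ≤ 1 / (8 * Cs) := by
    rw [hc₀]; exact (min_le_right _ _).trans (min_le_right _ _)
  have h1 : c₀ ^ 2 ≤ c₀ := by nlinarith
  have c7 : 24 * MM n Cs Cd * c₀ ^ 2 ≤ 1 / 8 := by
    rw [le_div_iff₀ m0] at c5
    have := mul_le_mul_of_nonneg_left h1 m0.le
    linarith
  have c9 : 8 * (Cs * c₀ ^ 2) ≤ 1 := by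
    rw [le_div_iff₀ (by positivity)] at c8
    have := mul_le_mul_of_nonneg_left h1 hCs.le
    linarith
  have n0 : (0 : ℝ) ≤ n := Nat.cast_nonneg n
  refine ⟨1, c₀, c, 64 * n + 4 * R ^ 2, one_pos, c3, c6, c0, by positivity, ?_⟩
  intro ν w p I h0 hp hw z hI hr ht U V x y
  have q0' := qq_nonneg z
  have hr1 : qq z ≤ 1 := by nlinarith
  have E0 := hw.gp _ hI
  have K0 := hw.kp _ hI
  have low := q0_low' h0 hp hw hCs hCd le_rfl hI hr1 U V x y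
  have cn := cν_le (ν := ν) hp hw hCs hI hr1 (θ := 1)
    (by have := mul_le_mul_of_nonneg_left hr hCs.le; linarith)
  have hess := hs_low hp hw hCs hCd le_rfl (by norm_num : (0 : ℝ) < 1 / 8) hI hr hr1 c7 c1 ht U V
  rw [← hR] at low
  have key := absP (Y := Real.sqrt (s2 (U - V))) (τ := |vν ν U + vν ν V|)
    (b := |(x + y) / 2|) (c := |(x - y) / 2|) R1 K0 E0.le (Real.sqrt_nonneg (qq z))
    (Real.sqrt_le_one.2 hr1) (Real.sq_sqrt q0').symm (abs_nonneg _) (abs_nonneg _)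
  rw [Real.sq_sqrt (s2_nonneg _), sq_abs (vν ν U + vν ν V)] at key
  unfold st
  rw [sum_uv]
  exact finP K0 E0 n0 (sq_nonneg _) (sq_nonneg _) (s2_nonneg _) (by
    rw [sq_abs, sq_abs]; ring) (sq_nonneg _) key low cn hess

end Vale.Agent.P088.R2.H406.Z
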