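import Vale.Agent.P088.R2.H406.Z.Rows3

/-!
# P088, zone C: the quantum terms with the third and fourth derivative of the slope separated
-/

open Set Filter
open scoped ContDiff Topology

noncomputable section

namespace Vale.Agent.P088.R2.H406.Z

open Vale.Agent.P088.LR Vale.Agent.P088.HY
open Vale.Agent.P088.R2.H644
open Vale.Agent.P088.R2.H205.CP (lx ly hν s2 q0 st WF PF Wg PD WD)
open Vale.Agent.P088.R2.H406.C (Sx Sxy BT BH mb qlow absQ absH finQ)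

variable {n : ℕ} {ψ G Φ : ℕ → ℝ → ℝ} {ν : V n}

/-- `PB` without the third and fourth derivative of the slope. -/
structure PB2 (ν : V n) (ψ G Φ : ℕ → ℝ → ℝ) (K E M : ℝ) (z : VV n) : Prop where
  K0 : 0 ≤ K
  E0 : 0 ≤ E
  M1 : 1 ≤ M
  r1 : qq z ≤ 1
  p : |ψ 2 (hν ν z)| ≤ M * K
  g : ∀ k, k ≤ 4 → |G k (hν ν z)| ≤ M * E
  F0 : |Φ 0 (qq z)| ≤ M * qq z
  F1 : |Φ 1 (qq z)| ≤ M
  F2 : |Φ 2 (qq z)| ≤ M
  L1 : |l1 n Φ (qq z)| ≤ M
  L2 : |l2 n Φ (qq z)| ≤ M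
  L3 : |l4 n Φ (qq z)| ≤ M

section pb

variable {K E M : ℝ} {z : VV n}

theorem PB2.bt (h : PB2 ν ψ G Φ K E M z) (h0 : s2 ν = 1) : BT 0 0 0
    0 0 0 (G 0 (hν ν z)) (G 1 (hν ν z)) (G 2 (hν ν z))
    (G 3 (hν ν z)) (G 4 (hν ν z)) (Φ 0 (qq z)) (Φ 1 (qq z)) (Φ 2 (qq z)) (l1 n Φ (qq z))
    (l2 n Φ (qq z)) (l4 n Φ (qq z)) (qn ν z) (Real.sqrt (qq z)) K E M := by
  have mk : |(0 : ℝ)| ≤ M * K := by
    rw [abs_zero]
    exact mul_nonneg (by linarith [h.M1]) h.K0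
  refine ⟨h.K0, h.E0, Real.sqrt_nonneg _, Real.sqrt_le_one.2 h.r1, h.M1, abs_qn_le h0 z, mk, mk,
    mk, mk, mk, mk,
    h.g 0 (by norm_num), h.g 1 (by norm_num), h.g 2 (by norm_num), h.g 3 (by norm_num),
    h.g 4 (by norm_num), ?_, h.F1, h.F2, h.L1, h.L2, h.L3⟩
  rw [Real.sq_sqrt (qq_nonneg z)]; exact h.F0

theorem PB2.bh (h : PB2 ν ψ G Φ K E M z) (h0 : s2 ν = 1) : BH (ck ν ψ G Φ z)
    (ck ν ψ G Φ z) (ck ν ψ G Φ z) (cα ν G Φ z) (cμ ν G Φ z) (cν ν G Φ z)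
    (qn ν z) (qq z) (Real.sqrt (qq z)) K E (2 * M ^ 2) := by
  have K0 := h.K0
  have E0 := h.E0
  have M1 := h.M1
  have M0 : 0 ≤ M := by linarith
  have MM : M ≤ M ^ 2 := by nlinarith
  have q0' := qq_nonneg z
  have hK : M * K ≤ M ^ 2 * K := mul_le_mul_of_nonneg_right MM K0
  have hE : M * E ≤ M ^ 2 * E := mul_le_mul_of_nonneg_right MM E0
  have p := abs_le.1 h.p
  have g := abs_le.1 (mb (h.g 2 (by norm_num)) h.F0)
  have e1 : M * E * (M * qq z) = M ^ 2 * (E * qq z) := by ring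
  rw [e1] at g
  have n1 : 0 ≤ M ^ 2 * K := by positivity
  have n2 : 0 ≤ M ^ 2 * (E * qq z) := by positivity
  have e2 : 2 * M ^ 2 * (K + E * qq z) = 2 * (M ^ 2 * K) + 2 * (M ^ 2 * (E * qq z)) := by ring
  have ez : |ck ν ψ G Φ z| ≤ 2 * M ^ 2 * (K + E * qq z) := by
    unfold ck
    rw [e2, abs_le]
    constructor
    · linarith [p.1, g.1]
    · linarith [p.2, g.2]
  refine ⟨K0, E0, Real.sqrt_nonneg _, Real.sqrt_le_one.2 h.r1, (Real.sq_sqrt q0').symm,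
    abs_qn_le h0 z, ez, ez, ez, ?_, ?_, ?_, ?_, ?_⟩
  · have := mb (h.g 1 (by norm_num)) h.F1
    unfold cα
    rw [abs_mul, abs_of_pos (by norm_num : (0 : ℝ) < 2)]
    nlinarith
  · have := mb (h.g 0 (by norm_num)) h.F2
    unfold cμ
    rw [abs_mul, abs_of_pos (by norm_num : (0 : ℝ) < 4)]
    nlinarith
  · have := mb (h.g 0 (by norm_num)) h.F1
    unfold cν
    rw [abs_mul, abs_of_pos (by norm_num : (0 : ℝ) < 2)]
    nlinarith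
  · rw [sub_self, abs_zero]
    have := Real.sqrt_nonneg (qq z)
    positivity
  · have e3 : ck ν ψ G Φ z + ck ν ψ G Φ z - 2 * ck ν ψ G Φ z = 0 := by ring
    rw [e3, abs_zero]
    positivity

/-- The quantum terms; the terms with `ψ'''`, `ψ''''` are exact. -/
theorem q0_low2 (hψ : Chn ψ) (hG : Chn G) (hΦ : Chn Φ) (h : PB2 ν ψ G Φ K E M z)
    (h0 : s2 ν = 1) (A B : V n) (a b : ℝ) :
    -(32 * n * cν ν G Φ z ^ 2 * ((a + b) / 2) ^ 2) - 2048 * (M ^ 4 *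
      ((K ^ 2 + K * E + E ^ 2 * qq z + K + E) * (((a + b) / 2) ^ 2 + ((a - b) / 2) ^ 2)) +
        M ^ 4 * ((K + E) ^ 2 * Real.sqrt (qq z) * (|(a + b) / 2| * |(a - b) / 2|)) +
        M ^ 4 * (((K + E) * |vν ν A + vν ν B| + E * Real.sqrt (qq z) *
          Real.sqrt (s2 (A - B))) * |(a + b) / 2|) +
        M ^ 4 * ((K * |vν ν A + vν ν B| + E * Real.sqrt (qq z) * |vν ν A + vν ν B| +
          E * Real.sqrt (s2 (A - B))) * |(a - b) / 2|)) ≤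
    q0 (Wz ν ψ G Φ) A B a b z + 8 * (a + b) * (ψ 3 (hν ν z) * (vν ν A + vν ν B)) -
      2 * ψ 4 (hν ν z) * (a + b) ^ 2 := by
  have bt := h.bt h0
  have bh := h.bh h0
  have ho := cs_qdot z A B
  have hy := cs_ν h0 A B
  obtain ⟨DX, hDX⟩ : ∃ DX, DX = dd (A, B) (lx (Wz ν ψ G Φ)) z -
    ψ 3 (hν ν z) * (vν ν A + vν ν B) := ⟨_, rfl⟩
  obtain ⟨DY, hDY⟩ : ∃ DY, DY = dd (A, B) (ly (Wz ν ψ G Φ)) z -
    ψ 3 (hν ν z) * (vν ν A + vν ν B) := ⟨_, rfl⟩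
  have t1 := bt.T1 (u := vν ν A + vν ν B) (v := 0) ho
  have t2 := bt.T2 (u := vν ν A + vν ν B) (v := 0) ho hy
  rw [abs_zero, add_zero |vν ν A + vν ν B|] at t1 t2
  have h1 : |DX + DY| ≤ 8 * M ^ 2 * ((K + E) * |vν ν A + vν ν B| +
      E * Real.sqrt (qq z) * Real.sqrt (s2 (A - B))) := by
    refine le_trans (le_of_eq ?_) t1
    rw [hDX, hDY, dd_lx hψ hG hΦ h0, dd_ly hψ hG hΦ h0]
    congr 1
    ring
  have h2 : |DX - DY| ≤ 24 * M ^ 2 * (K * |vν ν A + vν ν B| +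
      E * Real.sqrt (qq z) * |vν ν A + vν ν B| + E * Real.sqrt (s2 (A - B))) := by
    refine le_trans (le_of_eq ?_) t2
    rw [hDX, hDY, dd_lx hψ hG hΦ h0, dd_ly hψ hG hΦ h0]
    congr 1
    ring
  have key := qlow (f := a) (g := b) (nn := n) h.M1 h.K0 h.E0 (Real.sqrt_nonneg _)
    (qq_nonneg z) (abs_nonneg (vν ν A + vν ν B)) (Real.sqrt_nonneg (s2 (A - B))) bh.A bh.D bh.X
    h1 h2 bt.L.1 bt.L.2.1 bt.L.2.2
  refine le_trans key (le_of_eq ?_)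
  rw [q0_eq, sxx_Wz hψ hG hΦ h0, syy_Wz hψ hG hΦ h0, sxy_Wz hψ hG hΦ h0,
    lxx_Wz hψ hG hΦ h0, lxy_Wz hψ hG hΦ h0, lyy_Wz hψ hG hΦ h0, hDX, hDY]
  ring

end pb

section rows

variable {Cs Cd ε : ℝ} {w : WF} {p : PF} {I : Set ℝ} {z : VV n}

theorem pb2_of (hp : PD Cs p) (hw : WD ε Cd w I) (hCs : 0 < Cs) (hε : ε ≤ 1)
    (hI : hν ν z ∈ I) (hr : qq z ≤ 1) : PB2 ν (it w.φ) (it w.G) (it p.Φ) (w.φ₂ (hν ν z))
      (w.G (hν ν z)) (MM n Cs 1) z := by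
  have n0 : (0 : ℝ) ≤ n := Nat.cast_nonneg n
  have q0' := qq_nonneg z
  obtain ⟨f1, f2, f3, f4⟩ := eφ hw
  obtain ⟨g1, g2, g3, g4⟩ := eG hw
  obtain ⟨p1, p2, p3, p4⟩ := eP hp
  have K0 := hw.kp _ hI
  have E0 := hw.gp _ hI
  have M0 : 0 ≤ (4 * (n : ℝ) ^ 2 + 24 * n + 64) * Cs := by positivity
  have b1 := hp.b1 _ q0' hr
  have b2 := hp.b2 _ q0' hr
  have B1 : |p.Φ₁ (qq z)| ≤ 1 / 2 + Cs := by
    have h1 := abs_le.1 b1
    have h2 : Cs * qq z ≤ Cs := mul_le_of_le_one_right hCs.le hr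
    rw [abs_le]
    constructor
    · linarith [h1.1]
    · linarith [h1.2]
  have M2 : 2 ≤ MM n Cs 1 := by unfold MM; linarith
  have nn : 0 ≤ (n : ℝ) ^ 2 * Cs := by positivity
  have nC : 0 ≤ (n : ℝ) * Cs := by positivity
  have L2' : |l2 n (it p.Φ) (qq z)| ≤ 4 * Cs + (2 * n + 4) * Cs := by
    unfold l2 lpk
    rw [p2, p3]
    exact lpk_le q0' hr (by positivity) b2.1 b2.2.1
  have L3' : |l3 n (it p.Φ) (qq z)| ≤ 4 * Cs + (2 * n + 8) * Cs := by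
    unfold l3 lpk
    rw [p3, p4]
    exact lpk_le q0' hr (by positivity) b2.2.1 b2.2.2
  refine ⟨K0.le, E0.le, by linarith, hr, ?_, ?_, ?_, ?_, ?_, ?_, ?_, ?_⟩
  · rw [f2, abs_of_pos K0]
    nlinarith
  · intro k hk4
    have key : ∀ g, |g - w.G (hν ν z)| ≤ ε * w.G (hν ν z) → |g| ≤
        MM n Cs 1 * w.G (hν ν z) := fun g hg =>
      (abs_of_rel E0 hε hg).trans (mul_le_mul_of_nonneg_right M2 E0.le)
    interval_cases k
    · rw [it0, abs_of_pos E0]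
      nlinarith
    · rw [g1]; exact key _ (hw.g1 _ hI)
    · rw [g2]; exact key _ (hw.g2 _ hI)
    · rw [g3]; exact key _ (hw.g3 _ hI)
    · rw [g4]; exact key _ (hw.g4 _ hI)
  · rw [it0, abs_of_nonneg (hp.ps _ q0' hr).1]
    nlinarith [(hp.ps _ q0' hr).2]
  · rw [p1]
    refine B1.trans ?_
    unfold MM
    nlinarith
  · rw [p2]
    refine b2.1.trans ?_
    unfold MM
    nlinarith
  · unfold l1 lpk
    rw [p1, p2]
    refine (lpk_le q0' hr (by positivity) B1 b2.1).trans ?_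
    unfold MM
    nlinarith
  · refine L2'.trans ?_
    unfold MM
    nlinarith
  · unfold l4 lpk
    refine (lpk_le q0' hr (by positivity) L2' L3').trans ?_
    unfold MM
    nlinarith

/-- The lower bound with `R = 2048 M⁴`, `M` independent of `Cd`. -/
theorem q0_low2' (h0 : s2 ν = 1) (hp : PD Cs p) (hw : WD ε Cd w I) (hCs : 0 < Cs)
    (hε : ε ≤ 1) (hI : hν ν z ∈ I) (hr : qq z ≤ 1) (U V : V n) (x y : ℝ) :
    -(32 * n * cν ν (it w.G) (it p.Φ) z ^ 2 * |(x + y) / 2| ^ 2) - 2048 * MM n Cs 1 ^ 4 *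
      ((w.φ₂ (hν ν z) ^ 2 + w.φ₂ (hν ν z) * w.G (hν ν z) + w.G (hν ν z) ^ 2 * qq z +
        w.φ₂ (hν ν z) + w.G (hν ν z)) * (|(x + y) / 2| ^ 2 + |(x - y) / 2| ^ 2) +
        (w.φ₂ (hν ν z) + w.G (hν ν z)) ^ 2 * Real.sqrt (qq z) *
          (|(x + y) / 2| * |(x - y) / 2|) +
        ((w.φ₂ (hν ν z) + w.G (hν ν z)) * |vν ν U + vν ν V| + w.G (hν ν z) *
          Real.sqrt (qq z) * Real.sqrt (s2 (U - V))) * |(x + y) / 2| +
        (w.φ₂ (hν ν z) * |vν ν U + vν ν V| + w.G (hν ν z) * Real.sqrt (qq z) *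
          |vν ν U + vν ν V| + w.G (hν ν z) * Real.sqrt (s2 (U - V))) * |(x - y) / 2|) ≤
    q0 (Wg ν w p) U V x y z + 8 * (x + y) * (w.φ₃ (hν ν z) * (vν ν U + vν ν V)) -
      2 * w.φ₄ (hν ν z) * (x + y) ^ 2 := by
  have pb := pb2_of (ν := ν) hp hw hCs hε hI hr
  have h := q0_low2 (chn_it hw.sm) (chn_it hw.sg) (chn_it hp.sm) pb h0 U V x y
  rw [(eφ hw).2.2.1, (eφ hw).2.2.2] at h
  rw [Wg_Wz]
  refine le_trans (le_of_eq ?_) h
  rw [sq_abs, sq_abs]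
  ring

end rows

end Vale.Agent.P088.R2.H406.Z
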